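import Crest.Agent.Lib.Bc.BiCheck.Digits
/-!
# BiCheck, part B: one axis. Bernstein-type expansion of `t ^ f` on a cell `[L/D, U/D]`, with digits.
-/
set_option autoImplicit false
open Finset

namespace Crest.Agent.Lib.Bc.BiCheck

/-- multiply a homogeneous polynomial `∑ c_k p^k q^(n-k)` by `a q + b p` -/
noncomputable def mulGo (a b : ℕ) (L : List ℕ) : ℕ → List ℕ :=
  List.rec (motive := fun _ => ℕ → List ℕ) (fun prev => app (Nat.mul b prev) fun v => [v])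
    (fun c _ ih prev => app (Nat.add (Nat.mul a c) (Nat.mul b prev)) fun v => v :: ih c) L

@[simp] lemma mulGo_nil (a b prev : ℕ) : mulGo a b [] prev = [b * prev] := rfl
@[simp] lemma mulGo_cons (a b c prev : ℕ) (cs : List ℕ) :
    mulGo a b (c :: cs) prev = (a * c + b * prev) :: mulGo a b cs c := rfl

noncomputable def mulLin (a b : ℕ) (L : List ℕ) : List ℕ := mulGo a b L 0

noncomputable def evalH (p q : ℝ) : List ℕ → ℝ
  | [] => 0
  | c :: cs => (c : ℝ) * q ^ cs.length + p * evalH p q cs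

lemma length_mulGo (a b : ℕ) (L : List ℕ) (prev : ℕ) : (mulGo a b L prev).length = L.length + 1 := by
  induction L generalizing prev with
  | nil => simp
  | cons c cs ih => simp [ih]

lemma evalH_mulGo (p q : ℝ) (a b : ℕ) (L : List ℕ) (prev : ℕ) :
    evalH p q (mulGo a b L prev)
      = ((a : ℝ) * q + b * p) * evalH p q L + (b : ℝ) * prev * q ^ L.length := by
  induction L generalizing prev with
  | nil => simp [evalH]
  | cons c cs ih =>
    simp only [mulGo_cons, evalH, length_mulGo, ih, List.length_cons]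
    push_cast
    ring

lemma evalH_mulLin (p q : ℝ) (a b : ℕ) (L : List ℕ) :
    evalH p q (mulLin a b L) = ((a : ℝ) * q + b * p) * evalH p q L := by
  simp [mulLin, evalH_mulGo]

lemma length_mulLin (a b : ℕ) (L : List ℕ) : (mulLin a b L).length = L.length + 1 :=
  length_mulGo a b L 0

noncomputable def iterLin (a b n : ℕ) (l : List ℕ) : List ℕ :=
  Nat.rec (motive := fun _ => List ℕ) l (fun _ ih => mulLin a b ih) n

@[simp] lemma iterLin_zero (a b : ℕ) (l : List ℕ) : iterLin a b 0 l = l := rfl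
@[simp] lemma iterLin_succ (a b n : ℕ) (l : List ℕ) :
    iterLin a b (n + 1) l = mulLin a b (iterLin a b n l) := rfl

lemma length_iterLin (a b n : ℕ) (l : List ℕ) : (iterLin a b n l).length = l.length + n := by
  induction n with
  | zero => simp
  | succ n ih => simp [length_mulLin, ih]; omega

lemma evalH_iterLin (p q : ℝ) (a b n : ℕ) (l : List ℕ) :
    evalH p q (iterLin a b n l) = ((a : ℝ) * q + b * p) ^ n * evalH p q l := by
  induction n with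
  | zero => simp
  | succ n ih => simp only [iterLin_succ, evalH_mulLin, ih]; ring

noncomputable def expand (L U D f m : ℕ) : List ℕ := iterLin L U f (iterLin D D m [1])
noncomputable def binomL (d : ℕ) : List ℕ := iterLin 1 1 d [1]

lemma length_expand (L U D f m : ℕ) : (expand L U D f m).length = f + m + 1 := by
  simp [expand, length_iterLin]; omega

lemma length_binomL (d : ℕ) : (binomL d).length = d + 1 := by
  simp [binomL, length_iterLin]; omega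

lemma evalH_expand (p q : ℝ) (L U D f m : ℕ) :
    evalH p q (expand L U D f m)
      = ((L : ℝ) * q + U * p) ^ f * ((D : ℝ) * q + D * p) ^ m := by
  simp [expand, evalH_iterLin, evalH]

lemma evalH_eq_sum (p q : ℝ) (l : List ℕ) :
    evalH p q l = ∑ k ∈ range l.length, (l.getD k 0 : ℝ) * p ^ k * q ^ (l.length - 1 - k) := by
  induction l with
  | nil => simp [evalH]
  | cons c cs ih =>
    simp only [evalH, List.length_cons]
    rw [Finset.sum_range_succ', ih, Finset.mul_sum]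
    simp only [Nat.add_sub_cancel, List.getD_cons_zero, List.getD_cons_succ, pow_zero, mul_one,
      Nat.sub_zero]
    rw [add_comm]
    congr 1
    refine Finset.sum_congr rfl fun k hk => ?_
    have hk' := Finset.mem_range.mp hk
    have : cs.length - (k + 1) = cs.length - 1 - k := by omega
    rw [this]
    ring

lemma mulGo_pos (L : List ℕ) (prev : ℕ) (h : ∀ x ∈ L, 0 < x) (hp : L = [] → 0 < prev) :
    ∀ x ∈ mulGo 1 1 L prev, 0 < x := by
  induction L generalizing prev with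
  | nil =>
    intro x hx
    simp at hx
    subst hx
    have := hp rfl
    omega
  | cons c cs ih =>
    intro x hx
    simp only [mulGo_cons, List.mem_cons] at hx
    have hc : 0 < c := h c (by simp)
    rcases hx with rfl | hx
    · omega
    · exact ih c (fun y hy => h y (by simp [hy])) (fun _ => hc) x hx

lemma binomL_pos (d k : ℕ) (hk : k ≤ d) : 0 < (binomL d).getD k 0 := by
  have key : ∀ n, (∀ x ∈ iterLin 1 1 n [1], 0 < x) := by
    intro n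
    induction n with
    | zero => simp
    | succ n ih =>
      simp only [iterLin_succ]
      refine mulGo_pos _ 0 ih ?_
      intro h0
      have := length_iterLin 1 1 n [1]
      rw [h0] at this
      simp at this
      omega
  have hlen : k < (binomL d).length := by rw [length_binomL]; omega
  rw [List.getD_eq_getElem _ _ hlen]
  exact key d _ (List.getElem_mem hlen)

/-- digit list access, kernel friendly -/
noncomputable def nthN (l : List ℕ) : ℕ → ℕ :=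
  List.rec (motive := fun _ => ℕ → ℕ) (fun _ => nat_lit 0)
    (fun a _ ih i => Nat.rec (motive := fun _ => ℕ) a (fun j _ => ih j) i) l

lemma nthN_eq (l : List ℕ) (i : ℕ) : nthN l i = l.getD i 0 := by
  induction l generalizing i with
  | nil => simp [nthN]
  | cons a as ih =>
    cases i with
    | zero => rfl
    | succ j => 
      show nthN as j = _
      rw [ih]; simp

/-- the digit: `floor (2^F a_k / (c_k D^d))` -/
noncomputable def eDig (F D d L U f k : ℕ) : ℕ :=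
  (expand L U D f (d - f)).getD k 0 * 2 ^ F / ((binomL d).getD k 0 * D ^ d)

/-- the nonnegative basis function -/
noncomputable def basV (D d L U : ℕ) (t : ℝ) (k : ℕ) : ℝ :=
  ((binomL d).getD k 0 : ℝ) * ((D : ℝ) * t - L) ^ k * ((U : ℝ) - D * t) ^ (d - k) / ((U : ℝ) - L) ^ d

lemma basV_nonneg (D d L U : ℕ) (t : ℝ) (k : ℕ) (hLU : L < U) (hl : (L : ℝ) ≤ D * t)
    (hu : (D : ℝ) * t ≤ U) : 0 ≤ basV D d L U t k := by
  have hw : (0 : ℝ) < (U : ℝ) - L := by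
    have : (L : ℝ) < U := by exact_mod_cast hLU
    linarith
  unfold basV
  have h1 : 0 ≤ (D : ℝ) * t - L := by linarith
  have h2 : 0 ≤ (U : ℝ) - D * t := by linarith
  positivity

/-- Sandwich: digits bound `2^F t^f` in the basis `basV`. -/
lemma axis_sandwich (F D d L U f : ℕ) (t : ℝ) (hD : 0 < D) (hLU : L < U) (hl : (L : ℝ) ≤ D * t)
    (hu : (D : ℝ) * t ≤ U) (hf : f ≤ d) :
    (∑ k ∈ range (d + 1), (eDig F D d L U f k : ℝ) * basV D d L U t k ≤ 2 ^ F * t ^ f) ∧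
      (2 ^ F * t ^ f ≤ ∑ k ∈ range (d + 1), ((eDig F D d L U f k : ℝ) + 1) * basV D d L U t k) := by
  have hD' : (0 : ℝ) < D := by exact_mod_cast hD
  have hw : (0 : ℝ) < (U : ℝ) - L := by
    have : (L : ℝ) < U := by exact_mod_cast hLU
    linarith
  set p : ℝ := (D : ℝ) * t - L with hp
  set q : ℝ := (U : ℝ) - D * t with hq
  have hp0 : 0 ≤ p := by rw [hp]; linarith
  have hq0 : 0 ≤ q := by rw [hq]; linarith
  set w : ℝ := (U : ℝ) - L with hwdef
  have hScale : (0 : ℝ) < ((D : ℝ) * w) ^ d := by positivity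
  have hlen : (expand L U D f (d - f)).length = d + 1 := by
    rw [length_expand]; omega
  have hev : ∑ k ∈ range (d + 1), ((expand L U D f (d - f)).getD k 0 : ℝ) * p ^ k * q ^ (d - k)
      = t ^ f * ((D : ℝ) * w) ^ d := by
    have h1 := evalH_eq_sum p q (expand L U D f (d - f))
    rw [hlen] at h1
    simp only [Nat.add_sub_cancel] at h1
    rw [← h1, evalH_expand]
    have e1 : (L : ℝ) * q + U * p = t * ((D : ℝ) * w) := by rw [hp, hq, hwdef]; ring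
    have e2 : (D : ℝ) * q + D * p = (D : ℝ) * w := by rw [hp, hq, hwdef]; ring
    rw [e1, e2, mul_pow, mul_assoc, ← pow_add]
    congr 2
    omega
  have hbas : ∀ k, basV D d L U t k * ((D : ℝ) * w) ^ d
      = ((binomL d).getD k 0 : ℝ) * (D : ℝ) ^ d * (p ^ k * q ^ (d - k)) := by
    intro k
    unfold basV
    rw [mul_pow]
    have : w ^ d ≠ 0 := by positivity
    rw [← hp, ← hq, ← hwdef]
    field_simp
  have hpq : ∀ k, 0 ≤ p ^ k * q ^ (d - k) := fun k => by positivity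
  have hdiv : ∀ k ∈ range (d + 1), (0 : ℝ) < ((binomL d).getD k 0 : ℝ) * (D : ℝ) ^ d := by
    intro k hk
    have := binomL_pos d k (by have := Finset.mem_range.mp hk; omega)
    have h0 : (0 : ℝ) < ((binomL d).getD k 0 : ℝ) := by exact_mod_cast this
    positivity
  constructor
  · have key : (∑ k ∈ range (d + 1), (eDig F D d L U f k : ℝ) * basV D d L U t k) * ((D : ℝ) * w) ^ d
        ≤ (2 ^ F * t ^ f) * ((D : ℝ) * w) ^ d := by
      rw [Finset.sum_mul, mul_assoc, ← hev, Finset.mul_sum]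
      refine Finset.sum_le_sum fun k _ => ?_
      rw [mul_assoc, hbas k]
      have hN : eDig F D d L U f k * ((binomL d).getD k 0 * D ^ d)
          ≤ (expand L U D f (d - f)).getD k 0 * 2 ^ F := Nat.div_mul_le_self _ _
      have hR : (eDig F D d L U f k : ℝ) * (((binomL d).getD k 0 : ℝ) * (D : ℝ) ^ d)
          ≤ ((expand L U D f (d - f)).getD k 0 : ℝ) * 2 ^ F := by exact_mod_cast hN
      have := mul_le_mul_of_nonneg_right hR (hpq k)
      nlinarith [this]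
    exact le_of_mul_le_mul_right key hScale
  · have key : (2 ^ F * t ^ f) * ((D : ℝ) * w) ^ d
        ≤ (∑ k ∈ range (d + 1), ((eDig F D d L U f k : ℝ) + 1) * basV D d L U t k) * ((D : ℝ) * w) ^ d := by
      rw [Finset.sum_mul, mul_assoc, ← hev, Finset.mul_sum]
      refine Finset.sum_le_sum fun k hk => ?_
      rw [mul_assoc ((eDig F D d L U f k : ℝ) + 1), hbas k]
      have hpos : 0 < (binomL d).getD k 0 * D ^ d := by
        have := binomL_pos d k (by have := Finset.mem_range.mp hk; omega)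
        positivity
      have hN : (expand L U D f (d - f)).getD k 0 * 2 ^ F
          < (binomL d).getD k 0 * D ^ d * (eDig F D d L U f k + 1) := Nat.lt_mul_div_succ _ hpos
      have hR : ((expand L U D f (d - f)).getD k 0 : ℝ) * 2 ^ F
          ≤ ((binomL d).getD k 0 : ℝ) * (D : ℝ) ^ d * ((eDig F D d L U f k : ℝ) + 1) := by
        exact_mod_cast hN.le
      have := mul_le_mul_of_nonneg_right hR (hpq k)
      nlinarith [this]
    exact le_of_mul_le_mul_right key hScale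

/-- A triple product of sandwiches. -/
lemma prod3_sandwich (K₁ K₂ K₃ : Finset ℕ) (e₁ e₂ e₃ : ℕ → ℕ) (b₁ b₂ b₃ : ℕ → ℝ)
    (hb₁ : ∀ k ∈ K₁, 0 ≤ b₁ k) (hb₂ : ∀ k ∈ K₂, 0 ≤ b₂ k) (hb₃ : ∀ k ∈ K₃, 0 ≤ b₃ k)
    (X₁ X₂ X₃ : ℝ) (E : ℕ)
    (hE₁ : ∀ k ∈ K₁, e₁ k ≤ E) (hE₂ : ∀ k ∈ K₂, e₂ k ≤ E) (hE₃ : ∀ k ∈ K₃, e₃ k ≤ E)
    (h₁ : (∑ k ∈ K₁, (e₁ k : ℝ) * b₁ k ≤ X₁) ∧ X₁ ≤ ∑ k ∈ K₁, ((e₁ k : ℝ) + 1) * b₁ k)
    (h₂ : (∑ k ∈ K₂, (e₂ k : ℝ) * b₂ k ≤ X₂) ∧ X₂ ≤ ∑ k ∈ K₂, ((e₂ k : ℝ) + 1) * b₂ k)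
    (h₃ : (∑ k ∈ K₃, (e₃ k : ℝ) * b₃ k ≤ X₃) ∧ X₃ ≤ ∑ k ∈ K₃, ((e₃ k : ℝ) + 1) * b₃ k) :
    (∑ k₁ ∈ K₁, ∑ k₂ ∈ K₂, ∑ k₃ ∈ K₃, ((e₁ k₁ * e₂ k₂ * e₃ k₃ : ℕ) : ℝ) * (b₁ k₁ * b₂ k₂ * b₃ k₃)
        ≤ X₁ * X₂ * X₃) ∧
      (X₁ * X₂ * X₃ ≤ ∑ k₁ ∈ K₁, ∑ k₂ ∈ K₂, ∑ k₃ ∈ K₃,
        (((e₁ k₁ * e₂ k₂ * e₃ k₃ + (3 * E ^ 2 + 3 * E + 1) : ℕ)) : ℝ) * (b₁ k₁ * b₂ k₂ * b₃ k₃)) := by
  have l₁ : 0 ≤ ∑ k ∈ K₁, (e₁ k : ℝ) * b₁ k :=
    Finset.sum_nonneg fun k hk => mul_nonneg (Nat.cast_nonneg _) (hb₁ k hk)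
  have l₂ : 0 ≤ ∑ k ∈ K₂, (e₂ k : ℝ) * b₂ k :=
    Finset.sum_nonneg fun k hk => mul_nonneg (Nat.cast_nonneg _) (hb₂ k hk)
  have l₃ : 0 ≤ ∑ k ∈ K₃, (e₃ k : ℝ) * b₃ k :=
    Finset.sum_nonneg fun k hk => mul_nonneg (Nat.cast_nonneg _) (hb₃ k hk)
  have X₁0 : 0 ≤ X₁ := l₁.trans h₁.1
  have X₂0 : 0 ≤ X₂ := l₂.trans h₂.1
  have X₃0 : 0 ≤ X₃ := l₃.trans h₃.1
  constructor
  · have e : ∑ k₁ ∈ K₁, ∑ k₂ ∈ K₂, ∑ k₃ ∈ K₃,
        ((e₁ k₁ * e₂ k₂ * e₃ k₃ : ℕ) : ℝ) * (b₁ k₁ * b₂ k₂ * b₃ k₃)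
        = (∑ k ∈ K₁, (e₁ k : ℝ) * b₁ k) * (∑ k ∈ K₂, (e₂ k : ℝ) * b₂ k) * (∑ k ∈ K₃, (e₃ k : ℝ) * b₃ k) := by
      rw [Finset.sum_mul_sum, Finset.sum_mul]
      refine Finset.sum_congr rfl fun k₁ _ => ?_
      rw [Finset.sum_mul]
      refine Finset.sum_congr rfl fun k₂ _ => ?_
      rw [Finset.mul_sum]
      refine Finset.sum_congr rfl fun k₃ _ => ?_
      push_cast
      ring
    rw [e]
    exact mul_le_mul (mul_le_mul h₁.1 h₂.1 l₂ X₁0) h₃.1 l₃ (mul_nonneg X₁0 X₂0)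
  · have u₂0 : 0 ≤ ∑ k ∈ K₂, ((e₂ k : ℝ) + 1) * b₂ k := X₂0.trans h₂.2
    have u₃0 : 0 ≤ ∑ k ∈ K₃, ((e₃ k : ℝ) + 1) * b₃ k := X₃0.trans h₃.2
    have u₁0 : 0 ≤ ∑ k ∈ K₁, ((e₁ k : ℝ) + 1) * b₁ k := X₁0.trans h₁.2
    have step1 : X₁ * X₂ * X₃ ≤ (∑ k ∈ K₁, ((e₁ k : ℝ) + 1) * b₁ k) * (∑ k ∈ K₂, ((e₂ k : ℝ) + 1) * b₂ k)
        * (∑ k ∈ K₃, ((e₃ k : ℝ) + 1) * b₃ k) :=
      mul_le_mul (mul_le_mul h₁.2 h₂.2 X₂0 u₁0) h₃.2 X₃0 (mul_nonneg u₁0 u₂0)
    refine step1.trans ?_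
    rw [Finset.sum_mul_sum, Finset.sum_mul]
    refine Finset.sum_le_sum fun k₁ hk₁ => ?_
    rw [Finset.sum_mul]
    refine Finset.sum_le_sum fun k₂ hk₂ => ?_
    rw [Finset.mul_sum]
    refine Finset.sum_le_sum fun k₃ hk₃ => ?_
    have hbb : 0 ≤ b₁ k₁ * b₂ k₂ * b₃ k₃ :=
      mul_nonneg (mul_nonneg (hb₁ _ hk₁) (hb₂ _ hk₂)) (hb₃ _ hk₃)
    have hN : (e₁ k₁ + 1) * (e₂ k₂ + 1) * (e₃ k₃ + 1)
        ≤ e₁ k₁ * e₂ k₂ * e₃ k₃ + (3 * E ^ 2 + 3 * E + 1) := by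
      have a1 := hE₁ k₁ hk₁
      have a2 := hE₂ k₂ hk₂
      have a3 := hE₃ k₃ hk₃
      have m12 : e₁ k₁ * e₂ k₂ ≤ E * E := Nat.mul_le_mul a1 a2
      have m13 : e₁ k₁ * e₃ k₃ ≤ E * E := Nat.mul_le_mul a1 a3
      have m23 : e₂ k₂ * e₃ k₃ ≤ E * E := Nat.mul_le_mul a2 a3
      nlinarith
    have hR : ((e₁ k₁ : ℝ) + 1) * ((e₂ k₂ : ℝ) + 1) * ((e₃ k₃ : ℝ) + 1)
        ≤ ((e₁ k₁ * e₂ k₂ * e₃ k₃ + (3 * E ^ 2 + 3 * E + 1) : ℕ) : ℝ) := by
      exact_mod_cast hN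
    have := mul_le_mul_of_nonneg_right hR hbb
    nlinarith [this]

end Crest.Agent.Lib.Bc.BiCheck
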