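import Mathlib
/-!
# BiCheck, part A: kernel friendly loops, digit reading in base `2^w`

Used by the kernel positivity engine (row 163): numbers packed in big naturals, compared by `Nat.land`.
-/
set_option autoImplicit false
open Finset

namespace Crest.Agent.Lib.Bc.BiCheck

/-! ## strict evaluation helpers -/

/-- strict application: the kernel evaluates `e` to a literal before it enters `k` -/
noncomputable def app {α : Type} (e : ℕ) (k : ℕ → α) : α :=
  Nat.rec (motive := fun _ => α) (k e) (fun m _ => k m) (Nat.succ e)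

@[simp] lemma app_eq {α : Type} (e : ℕ) (k : ℕ → α) : app e k = k e := rfl

/-- `∑ i < n, f i` with strict accumulation -/
noncomputable def sumR (n : ℕ) (f : ℕ → ℕ) : ℕ :=
  Nat.rec (motive := fun _ => ℕ) (nat_lit 0) (fun m ih => app ih fun r => Nat.add (f m) r) n

lemma sumR_eq (n : ℕ) (f : ℕ → ℕ) : sumR n f = ∑ i ∈ range n, f i := by
  induction n with
  | zero => rfl
  | succ m ih =>
    rw [Finset.sum_range_succ, ← ih]
    show f m + sumR m f = _
    ring

/-- `∀ i < n, p i` -/
noncomputable def allR (n : ℕ) (p : ℕ → Bool) : Bool :=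
  Nat.rec (motive := fun _ => Bool) true (fun m ih => Bool.rec false ih (p m)) n

lemma allR_eq_true (n : ℕ) (p : ℕ → Bool) (h : allR n p = true) : ∀ i < n, p i = true := by
  induction n with
  | zero => intro i hi; omega
  | succ m ih =>
    have h' : (Bool.rec false (allR m p) (p m) : Bool) = true := h
    cases hp : p m with
    | false => rw [hp] at h'; exact absurd h' (by simp)
    | true =>
      rw [hp] at h'
      intro i hi
      rcases Nat.lt_succ_iff_lt_or_eq.mp hi with hi | rfl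
      · exact ih h' i hi
      · exact hp

/-- a strict list of numbers -/
noncomputable def forceL {α : Type} (l : List ℕ) : (List ℕ → α) → α :=
  List.rec (motive := fun _ => (List ℕ → α) → α) (fun k => k [])
    (fun x _ ih k => app x fun v => ih fun r => k (v :: r)) l

@[simp] lemma forceL_eq {α : Type} (l : List ℕ) (k : List ℕ → α) : forceL l k = k l := by
  induction l generalizing k with
  | nil => rfl
  | cons x xs ih =>
    show forceL xs (fun r => k (x :: r)) = _
    rw [ih]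

noncomputable def forceLL {α : Type} (l : List (List ℕ)) : (List (List ℕ) → α) → α :=
  List.rec (motive := fun _ => (List (List ℕ) → α) → α) (fun k => k [])
    (fun x _ ih k => forceL x fun v => ih fun r => k (v :: r)) l

@[simp] lemma forceLL_eq {α : Type} (l : List (List ℕ)) (k : List (List ℕ) → α) :
    forceLL l k = k l := by
  induction l generalizing k with
  | nil => rfl
  | cons x xs ih =>
    show forceL x (fun v => forceLL xs (fun r => k (v :: r))) = _
    rw [forceL_eq, ih]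

noncomputable def forceL3 {α : Type} (l : List (List (List ℕ))) :
    (List (List (List ℕ)) → α) → α :=
  List.rec (motive := fun _ => (List (List (List ℕ)) → α) → α) (fun k => k [])
    (fun x _ ih k => forceLL x fun v => ih fun r => k (v :: r)) l

@[simp] lemma forceL3_eq {α : Type} (l : List (List (List ℕ))) (k : List (List (List ℕ)) → α) :
    forceL3 l k = k l := by
  induction l generalizing k with
  | nil => rfl
  | cons x xs ih =>
    show forceLL x (fun v => forceL3 xs (fun r => k (v :: r))) = _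
    rw [forceLL_eq, ih]

/-- dot product of two lists, strict -/
noncomputable def dotL (g : List ℕ) : List ℕ → ℕ :=
  List.rec (motive := fun _ => List ℕ → ℕ) (fun _ => nat_lit 0)
    (fun a _ ih T => List.rec (motive := fun _ => ℕ) (nat_lit 0)
      (fun t ts _ => app (ih ts) fun r => Nat.add (Nat.mul a t) r) T) g

lemma dotL_map {β : Type} (l : List β) (g h : β → ℕ) :
    dotL (l.map g) (l.map h) = (l.map fun i => g i * h i).sum := by
  induction l with
  | nil => rfl
  | cons i l ih =>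
    show Nat.add (Nat.mul (g i) (h i)) (dotL (l.map g) (l.map h)) = _
    rw [ih]; simp

lemma sum_map_range (n : ℕ) (f : ℕ → ℕ) : ((List.range n).map f).sum = ∑ i ∈ range n, f i := by
  induction n with
  | zero => simp
  | succ m ih => rw [List.sum_range_succ, Finset.sum_range_succ, ih]

lemma dotL_range (n : ℕ) (g h : ℕ → ℕ) :
    dotL ((List.range n).map g) ((List.range n).map h) = ∑ i ∈ range n, g i * h i := by
  rw [dotL_map, sum_map_range]

lemma getD_range_map {β : Type} (n : ℕ) (f : ℕ → β) (d : β) (k : ℕ) (hk : k < n) :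
    ((List.range n).map f).getD k d = f k := by
  simp [List.getD, hk]

/-! ## digit reading -/

lemma testBit_dense (w : ℕ) (F : ℕ → ℕ) (K : ℕ) (hF : ∀ k < K, F k < 2 ^ w) :
    (∑ k ∈ range K, F k * (2 ^ w) ^ k) < (2 ^ w) ^ K ∧
      ∀ p < K, ∀ j < w, (∑ k ∈ range K, F k * (2 ^ w) ^ k).testBit (w * p + j) = (F p).testBit j := by
  induction K with
  | zero => simp
  | succ K ih =>
    have hF' : ∀ k < K, F k < 2 ^ w := fun k hk => hF k (by omega)
    obtain ⟨h1, h2⟩ := ih hF'
    have hFK := hF K (by omega)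
    rw [Finset.sum_range_succ]
    constructor
    · rw [pow_succ]
      have : F K * (2 ^ w) ^ K + (2 ^ w) ^ K ≤ 2 ^ w * (2 ^ w) ^ K := by
        have : (F K + 1) * (2 ^ w) ^ K ≤ 2 ^ w * (2 ^ w) ^ K :=
          Nat.mul_le_mul_right _ (by omega)
        nlinarith
      nlinarith
    · intro p hp j hj
      have hpw : ((2 : ℕ) ^ w) ^ K = 2 ^ (w * K) := (pow_mul 2 w K).symm
      have hbase : (∑ k ∈ range K, F k * (2 ^ w) ^ k) + F K * (2 ^ w) ^ K
          = 2 ^ (w * K) * F K + ∑ k ∈ range K, F k * (2 ^ w) ^ k := by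
        rw [hpw]; ring
      rw [hbase, Nat.testBit_two_pow_mul_add _ (by rw [← hpw]; exact h1)]
      rcases Nat.lt_succ_iff_lt_or_eq.mp hp with hp | rfl
      · have : w * p + j < w * K := by
          have : w * (p + 1) ≤ w * K := Nat.mul_le_mul_left _ hp
          have : w * (p + 1) = w * p + w := by ring
          omega
        rw [if_pos this]
        exact h2 p hp j hj
      · have : ¬ (w * p + j < w * p) := by omega
        rw [if_neg this]
        congr 1
        omega

lemma testBit_pack {ι : Type} [DecidableEq ι] (s : Finset ι) (pos : ι → ℕ)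
    (hpos : Set.InjOn pos (s : Set ι)) (w : ℕ) (f : ι → ℕ) (hf : ∀ i ∈ s, f i < 2 ^ w)
    (i₀ : ι) (hi₀ : i₀ ∈ s) (j : ℕ) (hj : j < w) :
    (∑ i ∈ s, f i * (2 ^ w) ^ pos i).testBit (w * pos i₀ + j) = (f i₀).testBit j := by
  classical
  set K := s.sup pos + 1 with hK
  have hmem : ∀ x ∈ s, pos x ∈ range K := by
    intro x hx
    have : pos x ≤ s.sup pos := Finset.le_sup hx
    exact Finset.mem_range.mpr (by omega)
  let F : ℕ → ℕ := fun k => ∑ x ∈ s with pos x = k, f x
  have hsum : (∑ i ∈ s, f i * (2 ^ w) ^ pos i) = ∑ k ∈ range K, F k * (2 ^ w) ^ k := by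
    rw [← Finset.sum_fiberwise_of_maps_to hmem]
    refine Finset.sum_congr rfl fun k _ => ?_
    show _ = (∑ x ∈ s with pos x = k, f x) * _
    rw [Finset.sum_mul]
    refine Finset.sum_congr rfl fun x hx => ?_
    rw [(Finset.mem_filter.mp hx).2]
  have hFsing : ∀ i ∈ s, F (pos i) = f i := by
    intro i hi
    show (∑ x ∈ s with pos x = pos i, f x) = f i
    have : (s.filter fun x => pos x = pos i) = {i} := by
      ext x
      simp only [Finset.mem_filter, Finset.mem_singleton]
      constructor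
      · rintro ⟨hx, hxi⟩; exact hpos (by exact_mod_cast hx) (by exact_mod_cast hi) hxi
      · rintro rfl; exact ⟨hi, rfl⟩
    rw [this, Finset.sum_singleton]
  have hFlt : ∀ k < K, F k < 2 ^ w := by
    intro k _
    by_cases h : ∃ i ∈ s, pos i = k
    · obtain ⟨i, hi, rfl⟩ := h
      rw [hFsing i hi]; exact hf i hi
    · have : (s.filter fun x => pos x = k) = ∅ := by
        apply Finset.filter_eq_empty_iff.mpr
        intro x hx hxk
        exact h ⟨x, hx, hxk⟩
      show (∑ x ∈ s with pos x = k, f x) < _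
      rw [this, Finset.sum_empty]
      exact Nat.two_pow_pos w
  rw [hsum, (testBit_dense w F K hFlt).2 (pos i₀) (Finset.mem_range.mp (hmem i₀ hi₀)) j hj,
    hFsing i₀ hi₀]

/-- the packed difference with offset -/
lemma pack_offset {ι : Type} (s : Finset ι) (pos : ι → ℕ) (w : ℕ) (hw : 0 < w) (A C : ι → ℕ)
    (hC : ∀ i ∈ s, C i < 2 ^ (w - 1)) :
    (∑ i ∈ s, A i * (2 ^ w) ^ pos i) + (∑ i ∈ s, 2 ^ (w - 1) * (2 ^ w) ^ pos i)
        - (∑ i ∈ s, C i * (2 ^ w) ^ pos i)
      = ∑ i ∈ s, (2 ^ (w - 1) + A i - C i) * (2 ^ w) ^ pos i := by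
  have key : (∑ i ∈ s, (2 ^ (w - 1) + A i - C i) * (2 ^ w) ^ pos i) + (∑ i ∈ s, C i * (2 ^ w) ^ pos i)
      = (∑ i ∈ s, A i * (2 ^ w) ^ pos i) + (∑ i ∈ s, 2 ^ (w - 1) * (2 ^ w) ^ pos i) := by
    rw [← Finset.sum_add_distrib, ← Finset.sum_add_distrib]
    refine Finset.sum_congr rfl fun i hi => ?_
    have := hC i hi
    have h2 : 2 ^ (w - 1) + A i - C i + C i = A i + 2 ^ (w - 1) := by omega
    rw [← add_mul, h2]
    ring
  omega

lemma two_pow_pred (w : ℕ) (hw : 0 < w) : (2 : ℕ) ^ w = 2 * 2 ^ (w - 1) := by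
  obtain ⟨v, rfl⟩ : ∃ v, w = v + 1 := ⟨w - 1, by omega⟩
  simp [pow_succ, mul_comm]

/-- If the land-test succeeds, all digits on `s'` satisfy `C ≤ A`. -/
lemma cmp_pack {ι : Type} [DecidableEq ι] (s s' : Finset ι) (hs : s' ⊆ s) (pos : ι → ℕ)
    (hpos : Set.InjOn pos (s : Set ι)) (w : ℕ) (hw : 0 < w) (A C : ι → ℕ)
    (hA : ∀ i ∈ s, A i < 2 ^ (w - 1)) (hC : ∀ i ∈ s, C i < 2 ^ (w - 1))
    (h : ((∑ i ∈ s, A i * (2 ^ w) ^ pos i) + (∑ i ∈ s, 2 ^ (w - 1) * (2 ^ w) ^ pos i)
        - (∑ i ∈ s, C i * (2 ^ w) ^ pos i)) &&& (∑ i ∈ s', 2 ^ (w - 1) * (2 ^ w) ^ pos i)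
        = ∑ i ∈ s', 2 ^ (w - 1) * (2 ^ w) ^ pos i) :
    ∀ i ∈ s', C i ≤ A i := by
  intro i₀ hi₀
  have hw1 : w - 1 < w := by omega
  rw [pack_offset s pos w hw A C hC] at h
  have hpw := two_pow_pred w hw
  have hD : ∀ i ∈ s, 2 ^ (w - 1) + A i - C i < 2 ^ w := by
    intro i hi
    have := hA i hi
    omega
  have hbit := congrArg (fun n => Nat.testBit n (w * pos i₀ + (w - 1))) h
  simp only [Nat.testBit_land] at hbit
  have hH : (∑ i ∈ s', 2 ^ (w - 1) * (2 ^ w) ^ pos i).testBit (w * pos i₀ + (w - 1)) = true := by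
    rw [testBit_pack s' pos (hpos.mono (by exact_mod_cast hs)) w (fun _ => 2 ^ (w - 1))
      (fun _ _ => Nat.pow_lt_pow_right (by norm_num) hw1) i₀ hi₀ (w - 1) hw1]
    simp
  rw [hH, Bool.and_true, testBit_pack s pos hpos w _ hD i₀ (hs hi₀) (w - 1) hw1] at hbit
  by_contra hlt
  have hlt0 := not_le.mp hlt
  have hC0 := hC i₀ (hs hi₀)
  have hlt' : 2 ^ (w - 1) + A i₀ - C i₀ < 2 ^ (w - 1) := by omega
  rw [Nat.testBit_lt_two_pow hlt'] at hbit
  exact absurd hbit (by simp)

/-- If the land-test gives `0`, all digits on `s'` satisfy `A < C`. -/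
lemma excl_pack {ι : Type} [DecidableEq ι] (s s' : Finset ι) (hs : s' ⊆ s) (pos : ι → ℕ)
    (hpos : Set.InjOn pos (s : Set ι)) (w : ℕ) (hw : 0 < w) (A C : ι → ℕ)
    (hA : ∀ i ∈ s, A i < 2 ^ (w - 1)) (hC : ∀ i ∈ s, C i < 2 ^ (w - 1))
    (h : ((∑ i ∈ s, A i * (2 ^ w) ^ pos i) + (∑ i ∈ s, 2 ^ (w - 1) * (2 ^ w) ^ pos i)
        - (∑ i ∈ s, C i * (2 ^ w) ^ pos i)) &&& (∑ i ∈ s', 2 ^ (w - 1) * (2 ^ w) ^ pos i) = 0) :
    ∀ i ∈ s', A i < C i := by
  intro i₀ hi₀
  have hw1 : w - 1 < w := by omega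
  rw [pack_offset s pos w hw A C hC] at h
  have hpw := two_pow_pred w hw
  have hD : ∀ i ∈ s, 2 ^ (w - 1) + A i - C i < 2 ^ w := by
    intro i hi
    have := hA i hi
    omega
  have hbit := congrArg (fun n => Nat.testBit n (w * pos i₀ + (w - 1))) h
  simp only [Nat.testBit_land, Nat.zero_testBit] at hbit
  have hH : (∑ i ∈ s', 2 ^ (w - 1) * (2 ^ w) ^ pos i).testBit (w * pos i₀ + (w - 1)) = true := by
    rw [testBit_pack s' pos (hpos.mono (by exact_mod_cast hs)) w (fun _ => 2 ^ (w - 1))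
      (fun _ _ => Nat.pow_lt_pow_right (by norm_num) hw1) i₀ hi₀ (w - 1) hw1]
    simp
  rw [hH, Bool.and_true, testBit_pack s pos hpos w _ hD i₀ (hs hi₀) (w - 1) hw1] at hbit
  by_contra hge
  have hge := not_lt.mp hge
  have hC0 := hC i₀ (hs hi₀)
  have hA0 := hA i₀ (hs hi₀)
  have hrep : 2 ^ (w - 1) + A i₀ - C i₀ = 2 ^ (w - 1) + (A i₀ - C i₀) := by omega
  rw [hrep, Nat.testBit_two_pow_add_eq, Nat.testBit_lt_two_pow (by omega)] at hbit
  simp at hbit

end Crest.Agent.Lib.Bc.BiCheck
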