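import Crest.Agent.Lib.Bc.BiCheck.Packs
/-!
# BiCheck, part E: the main check and its soundness.

`check P = true` (by `decide +kernel`) implies `0 ≤ Rval P.terms x y` on the boxes of the two sides,
for the points satisfying the polynomial constraints.
-/
set_option autoImplicit false
open Finset

namespace Crest.Agent.Lib.Bc.BiCheck

/-! ## the analytic core -/

lemma bilinear_core {φ κ ν : Type} (F : Finset φ) (Kx : Finset κ) (Ky : Finset ν)
    (a : κ → ℝ) (b : ν → ℝ) (ha : ∀ k ∈ Kx, 0 ≤ a k) (hb : ∀ l ∈ Ky, 0 ≤ b l)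
    (g : φ → κ → ℝ) (hg : ∀ f ∈ F, ∀ k ∈ Kx, 0 ≤ g f k) (u : ℝ) (hu : 0 ≤ u)
    (Pn Af : φ → ν → ℝ) (phi Qh : φ → ℝ)
    (h1 : ∀ f ∈ F, (∑ k ∈ Kx, g f k * a k ≤ phi f) ∧ phi f ≤ ∑ k ∈ Kx, (g f k + u) * a k)
    (h2 : ∀ f ∈ F, (∑ l ∈ Ky, b l * Pn f l ≤ Qh f) ∧ |Qh f| ≤ ∑ l ∈ Ky, b l * Af f l)
    (h3 : ∀ k ∈ Kx, ∀ l ∈ Ky, u * ∑ f ∈ F, Af f l ≤ ∑ f ∈ F, g f k * Pn f l) :
    0 ≤ ∑ f ∈ F, phi f * Qh f := by
  have hS : 0 ≤ ∑ k ∈ Kx, a k := Finset.sum_nonneg ha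
  have step : ∀ f ∈ F, ∑ k ∈ Kx, ∑ l ∈ Ky, a k * b l * (g f k * Pn f l - u * Af f l) ≤ phi f * Qh f := by
    intro f hf
    obtain ⟨h11, h12⟩ := h1 f hf
    obtain ⟨h21, h22⟩ := h2 f hf
    set G := ∑ k ∈ Kx, g f k * a k with hG
    have hG0 : 0 ≤ G := Finset.sum_nonneg fun k hk => mul_nonneg (hg f hf k hk) (ha k hk)
    have hup : phi f ≤ G + u * ∑ k ∈ Kx, a k := by
      refine h12.trans (le_of_eq ?_)
      rw [hG, Finset.mul_sum, ← Finset.sum_add_distrib]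
      refine Finset.sum_congr rfl fun k _ => ?_
      ring
    have e : ∑ k ∈ Kx, ∑ l ∈ Ky, a k * b l * (g f k * Pn f l - u * Af f l)
        = G * (∑ l ∈ Ky, b l * Pn f l) - (u * ∑ k ∈ Kx, a k) * ∑ l ∈ Ky, b l * Af f l := by
      have e1 : G * (∑ l ∈ Ky, b l * Pn f l) = ∑ k ∈ Kx, ∑ l ∈ Ky, (g f k * a k) * (b l * Pn f l) := by
        rw [hG, Finset.sum_mul_sum]
      have e2 : (u * ∑ k ∈ Kx, a k) * (∑ l ∈ Ky, b l * Af f l)
          = ∑ k ∈ Kx, ∑ l ∈ Ky, (u * a k) * (b l * Af f l) := by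
        rw [Finset.mul_sum (a := u), Finset.sum_mul_sum]
      rw [e1, e2, ← Finset.sum_sub_distrib]
      refine Finset.sum_congr rfl fun k _ => ?_
      rw [← Finset.sum_sub_distrib]
      refine Finset.sum_congr rfl fun l _ => ?_
      ring
    rw [e]
    have hQ := abs_le.mp h22
    have hAf : 0 ≤ ∑ l ∈ Ky, b l * Af f l := (abs_nonneg _).trans h22
    have hε0 : 0 ≤ phi f - G := by linarith
    have hε1 : phi f - G ≤ u * ∑ k ∈ Kx, a k := by linarith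
    have m1 : G * (∑ l ∈ Ky, b l * Pn f l) ≤ G * Qh f := mul_le_mul_of_nonneg_left h21 hG0
    have m2 : -((u * ∑ k ∈ Kx, a k) * ∑ l ∈ Ky, b l * Af f l) ≤ (phi f - G) * Qh f := by
      have m3 : (phi f - G) * (-∑ l ∈ Ky, b l * Af f l) ≤ (phi f - G) * Qh f :=
        mul_le_mul_of_nonneg_left hQ.1 hε0
      have m4 : (phi f - G) * (∑ l ∈ Ky, b l * Af f l) ≤ (u * ∑ k ∈ Kx, a k) * ∑ l ∈ Ky, b l * Af f l :=
        mul_le_mul_of_nonneg_right hε1 hAf
      nlinarith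
    nlinarith
  refine le_trans ?_ (Finset.sum_le_sum step)
  rw [Finset.sum_comm]
  refine Finset.sum_nonneg fun k hk => ?_
  rw [Finset.sum_comm]
  refine Finset.sum_nonneg fun l hl => ?_
  have : ∑ f ∈ F, a k * b l * (g f k * Pn f l - u * Af f l)
      = a k * b l * (∑ f ∈ F, g f k * Pn f l - u * ∑ f ∈ F, Af f l) := by
    rw [← Finset.mul_sum, Finset.sum_sub_distrib, Finset.mul_sum (a := u)]
  rw [this]
  exact mul_nonneg (mul_nonneg (ha k hk) (hb l hl)) (by linarith [h3 k hk l hl])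

/-! ## the problem -/

/-- a term `(cp - cm) x^f y^h` -/
structure Term where
  f1 : ℕ
  f2 : ℕ
  f3 : ℕ
  h1 : ℕ
  h2 : ℕ
  h3 : ℕ
  cp : ℕ
  cm : ℕ

noncomputable def termV (t : Term) (x y : ℝ × ℝ × ℝ) : ℝ :=
  ((t.cp : ℝ) - t.cm) * (x.1 ^ t.f1 * x.2.1 ^ t.f2 * x.2.2 ^ t.f3)
    * (y.1 ^ t.h1 * y.2.1 ^ t.h2 * y.2.2 ^ t.h3)

noncomputable def Rval (ts : List Term) (x y : ℝ × ℝ × ℝ) : ℝ := (ts.map fun t => termV t x y).sum

structure Prob where
  X : Side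
  Y : Side
  W0 : ℕ
  OFF : ℕ
  terms : List Term
  consX : List (List CTerm)
  consY : List (List CTerm)

/-- row index `f = (f3, f2, f1)` -/
def fm (t : Term) (f : ℕ × ℕ × ℕ) : Bool :=
  Nat.beq t.f1 f.2.2 && (Nat.beq t.f2 f.2.1 && Nat.beq t.f3 f.1)

lemma fm_iff (t : Term) (f : ℕ × ℕ × ℕ) : fm t f = true ↔ f = (t.f3, t.f2, t.f1) := by
  unfold fm
  simp only [Bool.and_eq_true]
  constructor
  · rintro ⟨h1, h2, h3⟩
    have a1 := Nat.eq_of_beq_eq_true h1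
    have a2 := Nat.eq_of_beq_eq_true h2
    have a3 := Nat.eq_of_beq_eq_true h3
    ext <;> simp [a1, a2, a3]
  · rintro rfl
    exact ⟨Nat.beq_refl _, Nat.beq_refl _, Nat.beq_refl _⟩

lemma sum_fm {M : Type} [AddCommMonoid M] (s : Finset (ℕ × ℕ × ℕ)) (t : Term)
    (ht : (t.f3, t.f2, t.f1) ∈ s) (d : ℕ × ℕ × ℕ → M) :
    ∑ f ∈ s, cond (fm t f) (d f) 0 = d (t.f3, t.f2, t.f1) := by
  rw [Finset.sum_eq_single (t.f3, t.f2, t.f1)]
  · rw [(fm_iff t _).mpr rfl]; rfl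
  · intro f _ hne
    have : fm t f = false := by
      cases h : fm t f with
      | false => rfl
      | true => exact absurd ((fm_iff t f).mp h) hne
    rw [this]; rfl
  · intro h; exact absurd ht h

lemma sum_rows {M : Type} [AddCommMonoid M] (s : Finset (ℕ × ℕ × ℕ)) (ts : List Term)
    (ht : ∀ t ∈ ts, (t.f3, t.f2, t.f1) ∈ s) (d : Term → ℕ × ℕ × ℕ → M) :
    ∑ f ∈ s, (ts.map fun t => cond (fm t f) (d t f) 0).sum
      = (ts.map fun t => d t (t.f3, t.f2, t.f1)).sum := by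
  induction ts with
  | nil => simp
  | cons t ts ih =>
    simp only [List.map_cons, List.sum_cons]
    rw [Finset.sum_add_distrib, ih fun u hu => ht u (List.mem_cons_of_mem _ hu),
      sum_fm s t (ht t (by simp)) (d t)]

namespace Prob
variable (P : Prob)

/-- row packs -/
noncomputable def tpF (PT : List (List (List ℕ))) (f : ℕ × ℕ × ℕ) : ℕ :=
  sumLst P.terms fun t => Bool.rec (nat_lit 0) (Nat.mul t.cp (Side.pget PT t.h1 t.h2 t.h3)) (fm t f)

noncomputable def tnF (PT : List (List (List ℕ))) (one : ℕ) (f : ℕ × ℕ × ℕ) : ℕ :=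
  sumLst P.terms fun t => Bool.rec (nat_lit 0)
    (Nat.add (Nat.mul t.cm (Side.pget PT t.h1 t.h2 t.h3)) (Nat.mul (Nat.mul P.Y.v (Nat.add t.cp t.cm)) one))
    (fm t f)

noncomputable def tF (PT : List (List (List ℕ))) (one : ℕ) (f : ℕ × ℕ × ℕ) : ℕ :=
  Nat.add (Nat.mul (Nat.sub (Nat.add (P.tpF PT f) (Nat.mul P.OFF one)) (P.tnF PT one f))
    (Nat.pow 2 P.W0)) (nat_lit 1)

/-- the table of row packs: `f3`, `f2`, `f1` -/
noncomputable def ttF (PT : List (List (List ℕ))) (one : ℕ) : List (List (List ℕ)) :=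
  (List.range P.X.dd3).map fun f3 => (List.range P.X.dd2).map fun f2 =>
    (List.range P.X.dd1).map fun f1 => P.tF PT one (f3, f2, f1)

noncomputable def taF (PT : List (List (List ℕ))) (one : ℕ) : ℕ :=
  Nat.mul P.X.v (sumLst P.terms fun t =>
    Nat.mul (Nat.add t.cp t.cm) (Nat.add (Side.pget PT t.h1 t.h2 t.h3) (Nat.mul P.Y.v one)))

end Prob

/-- the valid mask on the `Y` side -/
noncomputable def hvF (S : Side) (po : ℕ) (NL : List ℕ) : ℕ :=
  sumR S.n1 fun c1 => sumR S.n2 fun c2 => sumR S.n3 fun c3 =>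
    Bool.rec (Nat.shiftLeft po (S.w * (S.DD * S.cid (c1, c2, c3)))) (nat_lit 0)
      (S.exclB po NL (c1, c2, c3))

/-- one final test -/
noncomputable def testOne (W0 OFF one H TA HV S' : ℕ) : Bool :=
  app (Nat.shiftRight S' W0) fun Sv => app (Nat.mod S' (Nat.pow 2 W0)) fun G =>
  app (Nat.add (Nat.mul (Nat.mul OFF G) one) TA) fun C =>
    Nat.beq (Nat.land (Nat.sub (Nat.add Sv H) C) HV) HV

/-- column of digits: for fixed cell and basis index -/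
noncomputable def colA (dd : ℕ) (T : List (List (List ℕ))) (c k : ℕ) : List ℕ :=
  (List.range dd).map fun f => nthN (nthLL (nthL3 T c) f) k

lemma colA_tab (F : ℕ) (a : Ax) (c k : ℕ) (hc : c < a.n) (hk : k < a.d + 1) :
    colA (a.d + 1) (tabA F a) c k = (List.range (a.d + 1)).map fun f => eA F a f c k := by
  unfold colA tabA
  refine List.map_congr_left fun f hf => ?_
  have hf' := List.mem_range.mp hf
  rw [nthL3_eq, getD_range_map _ _ _ _ hc, nthLL_eq, getD_range_map _ _ _ _ hf', nthN_eq,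
    getD_range_map _ _ _ _ hk]

/-- the main loop with sum factorisation -/
noncomputable def mainLoop (n1 d1 n2 d2 n3 d3 : ℕ) (TX1 TX2 TX3 TT : List (List (List ℕ)))
    (test : ℕ → Bool) (ex : ℕ × ℕ × ℕ → Bool) : Bool :=
  allR n1 fun c1 => allR d1 fun k1 =>
    forceL (colA d1 TX1 c1 k1) fun g1 =>
    forceLL (TT.map fun T2 => T2.map fun T1 => dotL g1 T1) fun U =>
    allR n2 fun c2 => allR d2 fun k2 =>
      forceL (colA d2 TX2 c2 k2) fun g2 =>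
      forceL (U.map fun Ur => dotL g2 Ur) fun V =>
      allR n3 fun c3 =>
        Bool.rec (allR d3 fun k3 => forceL (colA d3 TX3 c3 k3) fun g3 => test (dotL g3 V)) true
          (ex (c1, c2, c3))

lemma mainLoop_spec (n1 d1 n2 d2 n3 d3 : ℕ) (TX1 TX2 TX3 TT : List (List (List ℕ)))
    (test : ℕ → Bool) (ex : ℕ × ℕ × ℕ → Bool)
    (h : mainLoop n1 d1 n2 d2 n3 d3 TX1 TX2 TX3 TT test ex = true)
    (c1 k1 c2 k2 c3 k3 : ℕ) (hc1 : c1 < n1) (hk1 : k1 < d1) (hc2 : c2 < n2) (hk2 : k2 < d2)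
    (hc3 : c3 < n3) (hk3 : k3 < d3) (hex : ex (c1, c2, c3) = false) :
    test (dotL (colA d3 TX3 c3 k3) ((TT.map fun T2 => T2.map fun T1 => dotL (colA d1 TX1 c1 k1) T1).map
      fun Ur => dotL (colA d2 TX2 c2 k2) Ur)) = true := by
  unfold mainLoop at h
  have h0 := allR_eq_true _ _ h c1 hc1
  have h1 := allR_eq_true _ _ h0 k1 hk1
  rw [forceL_eq, forceLL_eq] at h1
  have h1' := allR_eq_true _ _ h1 c2 hc2
  have h2 := allR_eq_true _ _ h1' k2 hk2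
  rw [forceL_eq, forceL_eq] at h2
  have h3 := allR_eq_true _ _ h2 c3 hc3
  rw [hex] at h3
  have h4 := allR_eq_true _ _ h3 k3 hk3
  rwa [forceL_eq] at h4

/-- evaluation of the table contraction -/
lemma contraction_eq (d1 d2 d3 : ℕ) (e1 e2 e3 : ℕ → ℕ) (Tf : ℕ × ℕ × ℕ → ℕ) :
    dotL ((List.range d3).map e3)
      ((((List.range d3).map fun f3 => (List.range d2).map fun f2 =>
          (List.range d1).map fun f1 => Tf (f3, f2, f1)).map fun T2 =>
            T2.map fun T1 => dotL ((List.range d1).map e1) T1).map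
          fun Ur => dotL ((List.range d2).map e2) Ur)
      = ∑ f ∈ range d3 ×ˢ range d2 ×ˢ range d1, (e1 f.2.2 * e2 f.2.1 * e3 f.1) * Tf f := by
  have hlist : (((List.range d3).map fun f3 => (List.range d2).map fun f2 =>
          (List.range d1).map fun f1 => Tf (f3, f2, f1)).map fun T2 =>
            T2.map fun T1 => dotL ((List.range d1).map e1) T1).map
          (fun Ur => dotL ((List.range d2).map e2) Ur)
      = (List.range d3).map fun f3 => ∑ f2 ∈ range d2, e2 f2 * ∑ f1 ∈ range d1, e1 f1 * Tf (f3, f2, f1) := by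
    rw [List.map_map, List.map_map]
    refine List.map_congr_left fun f3 _ => ?_
    show dotL ((List.range d2).map e2) (((List.range d2).map fun f2 =>
      (List.range d1).map fun f1 => Tf (f3, f2, f1)).map fun T1 => dotL ((List.range d1).map e1) T1) = _
    have : (((List.range d2).map fun f2 => (List.range d1).map fun f1 => Tf (f3, f2, f1)).map
        fun T1 => dotL ((List.range d1).map e1) T1)
        = (List.range d2).map fun f2 => ∑ f1 ∈ range d1, e1 f1 * Tf (f3, f2, f1) := by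
      rw [List.map_map]
      exact List.map_congr_left fun f2 _ => dotL_range _ _ _
    rw [this, dotL_range]
  rw [hlist, dotL_range, Finset.sum_product]
  refine Finset.sum_congr rfl fun f3 _ => ?_
  rw [Finset.sum_product, Finset.mul_sum]
  refine Finset.sum_congr rfl fun f2 _ => ?_
  rw [Finset.mul_sum, Finset.mul_sum]
  refine Finset.sum_congr rfl fun f1 _ => ?_
  ring


/-! ## specification of the computed packs -/

namespace Prob
variable (P : Prob)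

noncomputable def eY (t : Term) (ω : (ℕ × ℕ × ℕ) × (ℕ × ℕ × ℕ)) : ℕ := P.Y.eT t.h1 t.h2 t.h3 ω

noncomputable def rowS (f : ℕ × ℕ × ℕ) (d : Term → ℕ) : ℕ :=
  (P.terms.map fun t => cond (fm t f) (d t) 0).sum

noncomputable def Pd (f : ℕ × ℕ × ℕ) (ω : (ℕ × ℕ × ℕ) × (ℕ × ℕ × ℕ)) : ℕ :=
  P.rowS f fun t => t.cp * P.eY t ω
noncomputable def Nd (f : ℕ × ℕ × ℕ) (ω : (ℕ × ℕ × ℕ) × (ℕ × ℕ × ℕ)) : ℕ :=
  P.rowS f fun t => t.cm * P.eY t ω + P.Y.v * (t.cp + t.cm)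
noncomputable def Afd (f : ℕ × ℕ × ℕ) (ω : (ℕ × ℕ × ℕ) × (ℕ × ℕ × ℕ)) : ℕ :=
  P.rowS f fun t => (t.cp + t.cm) * (P.eY t ω + P.Y.v)
noncomputable def Ad (ω : (ℕ × ℕ × ℕ) × (ℕ × ℕ × ℕ)) : ℕ :=
  (P.terms.map fun t => (t.cp + t.cm) * (P.eY t ω + P.Y.v)).sum

/-- all terms in range -/
def TermsOK : Prop :=
  ∀ t ∈ P.terms, t.f1 < P.X.dd1 ∧ t.f2 < P.X.dd2 ∧ t.f3 < P.X.dd3 ∧
    t.h1 < P.Y.dd1 ∧ t.h2 < P.Y.dd2 ∧ t.h3 < P.Y.dd3

/-- total coefficient bound -/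
noncomputable def total : ℕ :=
  (P.terms.map fun t => (t.cp + t.cm) * (P.Y.E * P.Y.E * P.Y.E + P.Y.v)).sum

lemma pk_zero (S : Side) : S.pk (fun _ => 0) = 0 := by simp [Side.pk]

lemma tpF_spec (hT : P.TermsOK) (f : ℕ × ℕ × ℕ) : P.tpF P.Y.ptabSpec f = P.Y.pk (P.Pd f) := by
  unfold tpF
  rw [sumLst_eq]
  have : (P.terms.map fun t => (Bool.rec (nat_lit 0) (Nat.mul t.cp (Side.pget P.Y.ptabSpec t.h1 t.h2 t.h3))
      (fm t f) : ℕ)) = P.terms.map fun t => P.Y.pk fun ω => cond (fm t f) (t.cp * P.eY t ω) 0 := by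
    refine List.map_congr_left fun t ht => ?_
    obtain ⟨_, _, _, h1, h2, h3⟩ := hT t ht
    cases fm t f with
    | false => simp [pk_zero]
    | true =>
      show t.cp * Side.pget P.Y.ptabSpec t.h1 t.h2 t.h3 = _
      rw [P.Y.pget_spec _ _ _ h1 h2 h3, Side.pk_mul]
      rfl
  rw [this, Side.pk_sum]
  rfl

lemma tnF_spec (hT : P.TermsOK) (f : ℕ × ℕ × ℕ) :
    P.tnF P.Y.ptabSpec P.Y.oneF f = P.Y.pk (P.Nd f) := by
  unfold tnF
  rw [sumLst_eq]
  have : (P.terms.map fun t => (Bool.rec (nat_lit 0)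
      (Nat.add (Nat.mul t.cm (Side.pget P.Y.ptabSpec t.h1 t.h2 t.h3))
        (Nat.mul (Nat.mul P.Y.v (Nat.add t.cp t.cm)) P.Y.oneF)) (fm t f) : ℕ))
      = P.terms.map fun t => P.Y.pk fun ω =>
        cond (fm t f) (t.cm * P.eY t ω + P.Y.v * (t.cp + t.cm)) 0 := by
    refine List.map_congr_left fun t ht => ?_
    obtain ⟨_, _, _, h1, h2, h3⟩ := hT t ht
    cases fm t f with
    | false => simp [pk_zero]
    | true =>
      show t.cm * Side.pget P.Y.ptabSpec t.h1 t.h2 t.h3 + P.Y.v * (t.cp + t.cm) * P.Y.oneF = _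
      rw [P.Y.pget_spec _ _ _ h1 h2 h3, Side.pk_mul, Side.oneF_eq, Side.pk_mul, Side.pk_add]
      simp only [mul_one]
      rfl
  rw [this, Side.pk_sum]
  rfl

lemma eY_le (hdig : P.Y.DigOK) (hT : P.TermsOK) (t : Term) (ht : t ∈ P.terms)
    (ω : (ℕ × ℕ × ℕ) × (ℕ × ℕ × ℕ)) (hω : ω ∈ P.Y.Om) : P.eY t ω ≤ P.Y.E * P.Y.E * P.Y.E := by
  obtain ⟨_, _, _, h1, h2, h3⟩ := hT t ht
  exact P.Y.eT_le hdig _ _ _ h1 h2 h3 ω hω

lemma rowS_le (f : ℕ × ℕ × ℕ) (d : Term → ℕ)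
    (hd : ∀ t ∈ P.terms, d t ≤ (t.cp + t.cm) * (P.Y.E * P.Y.E * P.Y.E + P.Y.v)) :
    P.rowS f d ≤ P.total := by
  unfold rowS total
  refine List.sum_le_sum fun t ht => ?_
  cases fm t f with
  | false => simp
  | true => exact hd t ht

lemma Pd_le (hdig : P.Y.DigOK) (hT : P.TermsOK) (f : ℕ × ℕ × ℕ)
    (ω : (ℕ × ℕ × ℕ) × (ℕ × ℕ × ℕ)) (hω : ω ∈ P.Y.Om) : P.Pd f ω ≤ P.total := by
  refine P.rowS_le f _ fun t ht => ?_
  have := P.eY_le hdig hT t ht ω hω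
  nlinarith [Nat.zero_le t.cm, Nat.zero_le t.cp, Nat.zero_le P.Y.v, Nat.mul_le_mul_left t.cp this,
    Nat.zero_le (t.cp * P.Y.v), Nat.zero_le (t.cm * P.Y.v),
    Nat.zero_le (t.cm * (P.Y.E * P.Y.E * P.Y.E))]

lemma Nd_le (hdig : P.Y.DigOK) (hT : P.TermsOK) (f : ℕ × ℕ × ℕ)
    (ω : (ℕ × ℕ × ℕ) × (ℕ × ℕ × ℕ)) (hω : ω ∈ P.Y.Om) : P.Nd f ω ≤ P.total := by
  refine P.rowS_le f _ fun t ht => ?_
  have := P.eY_le hdig hT t ht ω hω
  have h1 := Nat.mul_le_mul_left t.cm this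
  nlinarith [Nat.zero_le t.cm, Nat.zero_le t.cp, Nat.zero_le P.Y.v,
    Nat.zero_le (t.cp * (P.Y.E * P.Y.E * P.Y.E))]

lemma Ad_le (hdig : P.Y.DigOK) (hT : P.TermsOK)
    (ω : (ℕ × ℕ × ℕ) × (ℕ × ℕ × ℕ)) (hω : ω ∈ P.Y.Om) : P.Ad ω ≤ P.total := by
  unfold Ad total
  refine List.sum_le_sum fun t ht => ?_
  have := P.eY_le hdig hT t ht ω hω
  exact Nat.mul_le_mul_left _ (by omega)

lemma tF_spec (hdig : P.Y.DigOK) (hT : P.TermsOK) (hOFF : P.total ≤ P.OFF) (f : ℕ × ℕ × ℕ) :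
    P.tF P.Y.ptabSpec P.Y.oneF f
      = P.Y.pk (fun ω => P.Pd f ω + P.OFF - P.Nd f ω) * 2 ^ P.W0 + 1 := by
  unfold tF
  show (P.tpF P.Y.ptabSpec f + P.OFF * P.Y.oneF - P.tnF P.Y.ptabSpec P.Y.oneF f) * 2 ^ P.W0 + 1 = _
  rw [P.tpF_spec hT, P.tnF_spec hT, Side.oneF_eq, Side.pk_mul, Side.pk_add, Side.pk_sub]
  · simp only [mul_one]
  · intro ω hω
    have := P.Nd_le hdig hT f ω hω
    simp only [mul_one]
    omega

lemma taF_spec (hT : P.TermsOK) : P.taF P.Y.ptabSpec P.Y.oneF = P.X.v * P.Y.pk P.Ad := by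
  unfold taF
  show P.X.v * _ = _
  congr 1
  rw [sumLst_eq]
  have : (P.terms.map fun t => Nat.mul (Nat.add t.cp t.cm)
      (Nat.add (Side.pget P.Y.ptabSpec t.h1 t.h2 t.h3) (Nat.mul P.Y.v P.Y.oneF)))
      = P.terms.map fun t => P.Y.pk fun ω => (t.cp + t.cm) * (P.eY t ω + P.Y.v) := by
    refine List.map_congr_left fun t ht => ?_
    obtain ⟨_, _, _, h1, h2, h3⟩ := hT t ht
    show (t.cp + t.cm) * (Side.pget P.Y.ptabSpec t.h1 t.h2 t.h3 + P.Y.v * P.Y.oneF) = _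
    rw [P.Y.pget_spec _ _ _ h1 h2 h3, Side.oneF_eq, Side.pk_mul, Side.pk_add, Side.pk_mul]
    simp only [mul_one]
    rfl
  rw [this, Side.pk_sum]
  rfl

end Prob

lemma hvF_spec (S : Side) (NL : List ℕ) :
    hvF S S.poF NL = ∑ ω ∈ (S.Cset.filter fun c => S.exclB S.poF NL c = false) ×ˢ S.Kset,
      2 ^ (S.w - 1) * (2 ^ S.w) ^ S.pos ω := by
  unfold hvF
  simp only [sumR_eq]
  rw [Finset.sum_product, Finset.sum_filter]
  unfold Side.Cset
  rw [Finset.sum_product]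
  refine Finset.sum_congr rfl fun c1 _ => ?_
  rw [Finset.sum_product]
  refine Finset.sum_congr rfl fun c2 _ => ?_
  refine Finset.sum_congr rfl fun c3 _ => ?_
  cases S.exclB S.poF NL (c1, c2, c3) with
  | true => simp
  | false =>
    have := S.patt_eq (c1, c2, c3)
    rw [Finset.sum_product, Finset.sum_singleton] at this
    simpa using this

lemma testOne_spec (W0 OFF one H TA HV Sv G : ℕ) (hG : G < 2 ^ W0)
    (h : testOne W0 OFF one H TA HV (Sv * 2 ^ W0 + G) = true) :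
    (Sv + H - (OFF * G * one + TA)) &&& HV = HV := by
  unfold testOne at h
  simp only [app_eq] at h
  have e1 : Nat.shiftRight (Sv * 2 ^ W0 + G) W0 = Sv := by
    show (Sv * 2 ^ W0 + G) >>> W0 = Sv
    rw [Nat.shiftRight_eq_div_pow, add_comm, Nat.add_mul_div_right _ _ (Nat.two_pow_pos W0),
      Nat.div_eq_of_lt hG, zero_add]
  have e2 : Nat.mod (Sv * 2 ^ W0 + G) (Nat.pow 2 W0) = G := by
    show (Sv * 2 ^ W0 + G) % (2 ^ W0) = G
    rw [add_comm, Nat.add_mul_mod_self_right, Nat.mod_eq_of_lt hG]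
  rw [e1, e2] at h
  exact Nat.eq_of_beq_eq_true h

end Crest.Agent.Lib.Bc.BiCheck
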