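import Crest.Agent.Lib.Bc.BiCheck.Side
/-!
# BiCheck, part D: kernel computation of the packs of a side; exclusion of cells by constraints.
-/
set_option autoImplicit false
open Finset

namespace Crest.Agent.Lib.Bc.BiCheck

/-- strict sum over a list -/
noncomputable def sumLst {β : Type} (l : List β) (val : β → ℕ) : ℕ :=
  List.rec (motive := fun _ => ℕ) (nat_lit 0) (fun t _ ih => app ih fun r => Nat.add (val t) r) l

lemma sumLst_eq {β : Type} (l : List β) (val : β → ℕ) : sumLst l val = (l.map val).sum := by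
  induction l with
  | nil => rfl
  | cons t l ih =>
    show val t + sumLst l val = _
    rw [ih]; simp

/-- any over a list -/
noncomputable def anyL (l : List ℕ) (p : ℕ → Bool) : Bool :=
  List.rec (motive := fun _ => Bool) false (fun a _ ih => Bool.rec ih true (p a)) l

lemma anyL_spec (l : List ℕ) (p : ℕ → Bool) (h : anyL l p = true) : ∃ a ∈ l, p a = true := by
  induction l with
  | nil => exact absurd h (by simp [anyL])
  | cons a l ih =>
    have h' : (Bool.rec (anyL l p) true (p a) : Bool) = true := h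
    cases hp : p a with
    | true => exact ⟨a, by simp, hp⟩
    | false =>
      rw [hp] at h'
      obtain ⟨b, hb, hb'⟩ := ih h'
      exact ⟨b, by simp [hb], hb'⟩

/-- a polynomial constraint term -/
structure CTerm where
  e1 : ℕ
  e2 : ℕ
  e3 : ℕ
  cp : ℕ
  cm : ℕ

/-- the value of a constraint polynomial -/
noncomputable def consV (g : List CTerm) (x : ℝ × ℝ × ℝ) : ℝ :=
  (g.map fun t => ((t.cp : ℝ) - t.cm) * (x.1 ^ t.e1 * x.2.1 ^ t.e2 * x.2.2 ^ t.e3)).sum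

noncomputable def axPackB (Bs Bt : ℕ) (T : List (List (List ℕ))) (f : ℕ) : ℕ :=
  hornerL Bt (T.map fun row => hornerL Bs (nthLL row f))

lemma axPackB_tab (w σ τ F : ℕ) (a : Ax) (f : ℕ) (hf : f < a.d + 1) :
    axPackB (2 ^ (w * σ)) (2 ^ (w * τ)) (tabA F a) f
      = axPack w σ τ a.n (a.d + 1) fun c k => eA F a f c k := by
  rw [← hornerL_axPack]
  unfold axPackB tabA
  rw [List.map_map]
  congr 1
  refine List.map_congr_left fun c _ => ?_
  simp only [Function.comp]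
  rw [nthLL_eq, getD_range_map _ _ _ _ hf]

namespace Side
variable (S : Side)

noncomputable def apL1 (T : List (List (List ℕ))) : List ℕ :=
  app (Nat.pow 2 (S.w * 1)) fun Bs => app (Nat.pow 2 (S.w * S.DD)) fun Bt =>
    (List.range S.dd1).map (axPackB Bs Bt T)
noncomputable def apL2 (T : List (List (List ℕ))) : List ℕ :=
  app (Nat.pow 2 (S.w * S.dd1)) fun Bs => app (Nat.pow 2 (S.w * (S.DD * S.n1))) fun Bt =>
    (List.range S.dd2).map (axPackB Bs Bt T)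
noncomputable def apL3 (T : List (List (List ℕ))) : List ℕ :=
  app (Nat.pow 2 (S.w * (S.dd1 * S.dd2))) fun Bs =>
    app (Nat.pow 2 (S.w * (S.DD * S.n1 * S.n2))) fun Bt =>
    (List.range S.dd3).map (axPackB Bs Bt T)

/-- table of tensor packs -/
noncomputable def ptabOf (T1 T2 T3 : List (List (List ℕ))) : List (List (List ℕ)) :=
  forceL (S.apL1 T1) fun a1 => forceL (S.apL2 T2) fun a2 => forceL (S.apL3 T3) fun a3 =>
    a1.map fun x => a2.map fun y => a3.map fun z => Nat.mul (Nat.mul x y) z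

noncomputable def ptabSpec : List (List (List ℕ)) :=
  (List.range S.dd1).map fun a => (List.range S.dd2).map fun b => (List.range S.dd3).map fun c =>
    S.pk (S.eT a b c)

lemma ptabOf_eq : S.ptabOf (tabA S.F S.A1) (tabA S.F S.A2) (tabA S.F S.A3) = S.ptabSpec := by
  unfold ptabOf ptabSpec apL1 apL2 apL3
  simp only [forceL_eq, app_eq, List.map_map]
  refine List.map_congr_left fun a ha => ?_
  simp only [Function.comp]
  refine List.map_congr_left fun b hb => ?_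
  refine List.map_congr_left fun c hc => ?_
  simp only [Function.comp]
  have ha' := List.mem_range.mp ha
  have hb' := List.mem_range.mp hb
  have hc' := List.mem_range.mp hc
  show (axPackB (2 ^ (S.w * 1)) (2 ^ (S.w * S.DD)) (tabA S.F S.A1) a
      * axPackB (2 ^ (S.w * S.dd1)) (2 ^ (S.w * (S.DD * S.n1))) (tabA S.F S.A2) b)
      * axPackB (2 ^ (S.w * (S.dd1 * S.dd2))) (2 ^ (S.w * (S.DD * S.n1 * S.n2))) (tabA S.F S.A3) c = _
  rw [axPackB_tab _ _ _ _ _ _ ha', axPackB_tab _ _ _ _ _ _ hb', axPackB_tab _ _ _ _ _ _ hc']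
  exact S.pack3 _ _ _

/-- read a tensor pack -/
noncomputable def pget (T : List (List (List ℕ))) (a b c : ℕ) : ℕ :=
  nthN (nthLL (nthL3 T a) b) c

lemma pget_spec (a b c : ℕ) (ha : a < S.dd1) (hb : b < S.dd2) (hc : c < S.dd3) :
    pget S.ptabSpec a b c = S.pk (S.eT a b c) := by
  unfold pget ptabSpec
  rw [nthL3_eq, getD_range_map _ _ _ _ ha, nthLL_eq, getD_range_map _ _ _ _ hb, nthN_eq,
    getD_range_map _ _ _ _ hc]

noncomputable def oneF : ℕ :=
  hornerL (2 ^ (S.w * S.DD)) ((List.range S.n1).map fun _ =>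
      hornerL (2 ^ (S.w * 1)) ((List.range S.dd1).map fun _ => 1))
  * hornerL (2 ^ (S.w * (S.DD * S.n1))) ((List.range S.n2).map fun _ =>
      hornerL (2 ^ (S.w * S.dd1)) ((List.range S.dd2).map fun _ => 1))
  * hornerL (2 ^ (S.w * (S.DD * S.n1 * S.n2))) ((List.range S.n3).map fun _ =>
      hornerL (2 ^ (S.w * (S.dd1 * S.dd2))) ((List.range S.dd3).map fun _ => 1))

lemma oneF_eq : S.oneF = S.pk fun _ => 1 := by
  have := S.pack3 (fun _ _ => 1) (fun _ _ => 1) (fun _ _ => 1)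
  simp only [mul_one] at this
  rw [← this]
  unfold oneF
  rw [hornerL_axPack S.w 1 S.DD S.n1 S.dd1 (fun _ _ => 1),
    hornerL_axPack S.w S.dd1 (S.DD * S.n1) S.n2 S.dd2 (fun _ _ => 1),
    hornerL_axPack S.w (S.dd1 * S.dd2) (S.DD * S.n1 * S.n2) S.n3 S.dd3 (fun _ _ => 1)]

/-- pattern for the cell number zero -/
noncomputable def poF : ℕ :=
  2 ^ (S.w - 1) * hornerL (2 ^ (S.w * 1)) ((List.range S.dd1).map fun _ => 1)
    * hornerL (2 ^ (S.w * S.dd1)) ((List.range S.dd2).map fun _ => 1)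
    * hornerL (2 ^ (S.w * (S.dd1 * S.dd2))) ((List.range S.dd3).map fun _ => 1)

/-- digit pack restricted to one cell -/
lemma patt_eq (c : ℕ × ℕ × ℕ) :
    Nat.shiftLeft S.poF (S.w * (S.DD * S.cid c))
      = ∑ ω ∈ ({c} : Finset (ℕ × ℕ × ℕ)) ×ˢ S.Kset, 2 ^ (S.w - 1) * (2 ^ S.w) ^ S.pos ω := by
  rw [Finset.sum_product, Finset.sum_singleton,
    show Nat.shiftLeft S.poF (S.w * (S.DD * S.cid c)) = S.poF * 2 ^ (S.w * (S.DD * S.cid c)) from
      Nat.shiftLeft_eq _ _]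
  unfold poF
  rw [hornerL_range, hornerL_range, hornerL_range, mul_assoc (2 ^ (S.w - 1)),
    mul_assoc (2 ^ (S.w - 1)), Side.tri]
  unfold Kset
  rw [Finset.mul_sum, Finset.sum_mul]
  refine Finset.sum_congr rfl fun k _ => ?_
  have : S.pos (c, k) = 1 * k.1 + S.dd1 * k.2.1 + (S.dd1 * S.dd2) * k.2.2 + S.DD * S.cid c := by
    simp only [pos, sig]
    ring
  rw [this, pow_add, pow_add, pow_add, pow_mul, pow_mul, pow_mul, pow_mul, pow_mul, pow_mul, pow_mul]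
  ring

/-- the packed offset -/
lemma hF_eq : 2 ^ (S.w - 1) * S.oneF = S.pk fun _ => 2 ^ (S.w - 1) := by
  rw [oneF_eq, pk_mul]
  simp

/-- upper pack for a constraint -/
noncomputable def consNum (PT : List (List (List ℕ))) (one H : ℕ) (g : List CTerm) : ℕ :=
  app (sumLst g fun t => Nat.mul t.cp (Nat.add (pget PT t.e1 t.e2 t.e3) (Nat.mul S.v one))) fun sp =>
  app (sumLst g fun t => Nat.mul t.cm (pget PT t.e1 t.e2 t.e3)) fun sm =>
    Nat.sub (Nat.add sp H) sm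

/-- exclusion test for a cell -/
noncomputable def exclB (po : ℕ) (NL : List ℕ) (c : ℕ × ℕ × ℕ) : Bool :=
  app (Nat.shiftLeft po (S.w * (S.DD * S.cid c))) fun patt =>
    anyL NL fun Ng => Nat.beq (Nat.land Ng patt) 0

/-- constraints in range -/
def consRange (g : List CTerm) : Bool :=
  g.all fun t => Nat.blt t.e1 S.dd1 && (Nat.blt t.e2 S.dd2 && Nat.blt t.e3 S.dd3)

/-- numeric bound for the digits of a constraint -/
noncomputable def consBound (g : List CTerm) : ℕ :=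
  (g.map fun t => (t.cp + t.cm) * (S.E * S.E * S.E + S.v)).sum

lemma eT_le (hdig : S.DigOK) (a b c : ℕ) (ha : a < S.dd1) (hb : b < S.dd2) (hc : c < S.dd3)
    (ω : (ℕ × ℕ × ℕ) × (ℕ × ℕ × ℕ)) (hω : ω ∈ S.Om) : S.eT a b c ω ≤ S.E * S.E * S.E := by
  simp only [Om, Cset, Kset, Finset.mem_product, Finset.mem_range] at hω
  unfold eT
  exact Nat.mul_le_mul (Nat.mul_le_mul (hdig.1 a ha _ hω.1.1 _ hω.2.1)
    (hdig.2.1 b hb _ hω.1.2.1 _ hω.2.2.1)) (hdig.2.2 c hc _ hω.1.2.2 _ hω.2.2.2)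

lemma mT_eq (a b c : ℕ) (x : ℝ × ℝ × ℝ) :
    S.mT a b c x = (2 ^ S.F) ^ 3 * (x.1 ^ a * x.2.1 ^ b * x.2.2 ^ c) := by
  unfold mT; ring

/-- the digit functions of a constraint -/
noncomputable def cA (g : List CTerm) (ω : (ℕ × ℕ × ℕ) × (ℕ × ℕ × ℕ)) : ℕ :=
  (g.map fun t => t.cp * (S.eT t.e1 t.e2 t.e3 ω + S.v)).sum
noncomputable def cC (g : List CTerm) (ω : (ℕ × ℕ × ℕ) × (ℕ × ℕ × ℕ)) : ℕ :=
  (g.map fun t => t.cm * S.eT t.e1 t.e2 t.e3 ω).sum

lemma consRange_spec (g : List CTerm) (h : S.consRange g = true) :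
    ∀ t ∈ g, t.e1 < S.dd1 ∧ t.e2 < S.dd2 ∧ t.e3 < S.dd3 := by
  intro t ht
  unfold consRange at h
  have := List.all_eq_true.mp h t ht
  simp only [Bool.and_eq_true] at this
  have h1 : t.e1 < S.dd1 := by simpa using this.1
  have h2 : t.e2 < S.dd2 := by simpa using this.2.1
  have h3 : t.e3 < S.dd3 := by simpa using this.2.2
  exact ⟨h1, h2, h3⟩

lemma consNum_spec (g : List CTerm) (hr : ∀ t ∈ g, t.e1 < S.dd1 ∧ t.e2 < S.dd2 ∧ t.e3 < S.dd3) :
    S.consNum S.ptabSpec S.oneF (2 ^ (S.w - 1) * S.oneF) g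
      = S.pk (S.cA g) + S.pk (fun _ => 2 ^ (S.w - 1)) - S.pk (S.cC g) := by
  unfold consNum
  simp only [app_eq, sumLst_eq]
  rw [hF_eq]
  have e1 : (g.map fun t => Nat.mul t.cp (Nat.add (pget S.ptabSpec t.e1 t.e2 t.e3) (Nat.mul S.v S.oneF))).sum
      = S.pk (S.cA g) := by
    have : (g.map fun t => Nat.mul t.cp (Nat.add (pget S.ptabSpec t.e1 t.e2 t.e3) (Nat.mul S.v S.oneF)))
        = g.map fun t => S.pk fun ω => t.cp * (S.eT t.e1 t.e2 t.e3 ω + S.v) := by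
      refine List.map_congr_left fun t ht => ?_
      obtain ⟨h1, h2, h3⟩ := hr t ht
      show t.cp * (pget S.ptabSpec t.e1 t.e2 t.e3 + S.v * S.oneF) = _
      rw [S.pget_spec _ _ _ h1 h2 h3, oneF_eq, pk_mul, pk_add, pk_mul]
      simp
    rw [this, pk_sum]
    rfl
  have e2 : (g.map fun t => Nat.mul t.cm (pget S.ptabSpec t.e1 t.e2 t.e3)).sum = S.pk (S.cC g) := by
    have : (g.map fun t => Nat.mul t.cm (pget S.ptabSpec t.e1 t.e2 t.e3))
        = g.map fun t => S.pk fun ω => t.cm * S.eT t.e1 t.e2 t.e3 ω := by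
      refine List.map_congr_left fun t ht => ?_
      obtain ⟨h1, h2, h3⟩ := hr t ht
      show t.cm * pget S.ptabSpec t.e1 t.e2 t.e3 = _
      rw [S.pget_spec _ _ _ h1 h2 h3, pk_mul]
    rw [this, pk_sum]
    rfl
  rw [e1, e2]
  rfl

lemma consV_le (hok : S.axOK = true) (hdig : S.DigOK) (c : ℕ × ℕ × ℕ) (hc : c ∈ S.Cset)
    (x : ℝ × ℝ × ℝ) (hx : S.InCell c x) (g : List CTerm)
    (hr : ∀ t ∈ g, t.e1 < S.dd1 ∧ t.e2 < S.dd2 ∧ t.e3 < S.dd3) :
    (2 ^ S.F) ^ 3 * consV g x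
      ≤ ∑ k ∈ S.Kset, (((S.cA g (c, k) : ℕ) : ℝ) - ((S.cC g (c, k) : ℕ) : ℝ)) * S.bT c x k := by
  induction g with
  | nil => simp [consV, cA, cC]
  | cons t g ih =>
    have ih' := ih fun u hu => hr u (List.mem_cons_of_mem _ hu)
    obtain ⟨h1, h2, h3⟩ := hr t (by simp)
    obtain ⟨s1, s2⟩ := S.tensor_sand hok hdig c hc x hx t.e1 t.e2 t.e3 h1 h2 h3
    have hm : ((t.cp : ℝ) - t.cm) * S.mT t.e1 t.e2 t.e3 x
        ≤ ∑ k ∈ S.Kset, (((t.cp * (S.eT t.e1 t.e2 t.e3 (c, k) + S.v) : ℕ) : ℝ)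
            - ((t.cm * S.eT t.e1 t.e2 t.e3 (c, k) : ℕ) : ℝ)) * S.bT c x k := by
      have a1 : (t.cp : ℝ) * S.mT t.e1 t.e2 t.e3 x ≤ (t.cp : ℝ) * ∑ k ∈ S.Kset,
          ((S.eT t.e1 t.e2 t.e3 (c, k) + S.v : ℕ) : ℝ) * S.bT c x k :=
        mul_le_mul_of_nonneg_left s2 (Nat.cast_nonneg _)
      have a2 : (t.cm : ℝ) * ∑ k ∈ S.Kset, ((S.eT t.e1 t.e2 t.e3 (c, k) : ℕ) : ℝ) * S.bT c x k
          ≤ (t.cm : ℝ) * S.mT t.e1 t.e2 t.e3 x :=
        mul_le_mul_of_nonneg_left s1 (Nat.cast_nonneg _)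
      have e : ∑ k ∈ S.Kset, (((t.cp * (S.eT t.e1 t.e2 t.e3 (c, k) + S.v) : ℕ) : ℝ)
            - ((t.cm * S.eT t.e1 t.e2 t.e3 (c, k) : ℕ) : ℝ)) * S.bT c x k
          = (t.cp : ℝ) * (∑ k ∈ S.Kset, ((S.eT t.e1 t.e2 t.e3 (c, k) + S.v : ℕ) : ℝ) * S.bT c x k)
            - (t.cm : ℝ) * ∑ k ∈ S.Kset, ((S.eT t.e1 t.e2 t.e3 (c, k) : ℕ) : ℝ) * S.bT c x k := by
        rw [Finset.mul_sum, Finset.mul_sum, ← Finset.sum_sub_distrib]
        refine Finset.sum_congr rfl fun k _ => ?_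
        push_cast
        ring
      rw [e]
      nlinarith
    have e1 : (2 ^ S.F) ^ 3 * consV (t :: g) x
        = ((t.cp : ℝ) - t.cm) * S.mT t.e1 t.e2 t.e3 x + (2 ^ S.F) ^ 3 * consV g x := by
      unfold consV
      rw [List.map_cons, List.sum_cons, mT_eq]
      ring
    have e2 : ∑ k ∈ S.Kset, (((S.cA (t :: g) (c, k) : ℕ) : ℝ) - ((S.cC (t :: g) (c, k) : ℕ) : ℝ)) * S.bT c x k
        = ∑ k ∈ S.Kset, (((t.cp * (S.eT t.e1 t.e2 t.e3 (c, k) + S.v) : ℕ) : ℝ)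
            - ((t.cm * S.eT t.e1 t.e2 t.e3 (c, k) : ℕ) : ℝ)) * S.bT c x k
          + ∑ k ∈ S.Kset, (((S.cA g (c, k) : ℕ) : ℝ) - ((S.cC g (c, k) : ℕ) : ℝ)) * S.bT c x k := by
      rw [← Finset.sum_add_distrib]
      refine Finset.sum_congr rfl fun k _ => ?_
      simp only [cA, cC, List.map_cons, List.sum_cons]
      push_cast
      ring
    rw [e1, e2]
    exact add_le_add hm ih'

/-- A cell containing a point satisfying all constraints is not excluded. -/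
lemma excl_false (hok : S.axOK = true) (hdig : S.DigOK) (hw : 0 < S.w) (cons : List (List CTerm))
    (hr : ∀ g ∈ cons, S.consRange g = true) (hb : ∀ g ∈ cons, S.consBound g < 2 ^ (S.w - 1))
    (c : ℕ × ℕ × ℕ) (hc : c ∈ S.Cset) (x : ℝ × ℝ × ℝ) (hx : S.InCell c x)
    (hcons : ∀ g ∈ cons, 0 ≤ consV g x) :
    S.exclB S.poF (cons.map (S.consNum S.ptabSpec S.oneF (2 ^ (S.w - 1) * S.oneF))) c = false := by
  by_contra hne
  have htrue : S.exclB S.poF (cons.map (S.consNum S.ptabSpec S.oneF (2 ^ (S.w - 1) * S.oneF))) c = true := by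
    simpa using hne
  unfold exclB at htrue
  simp only [app_eq] at htrue
  obtain ⟨Ng, hNg, hbeq⟩ := anyL_spec _ _ htrue
  obtain ⟨g, hg, rfl⟩ := List.mem_map.mp hNg
  have hgr := S.consRange_spec g (hr g hg)
  have hland := Nat.eq_of_beq_eq_true hbeq
  rw [patt_eq, consNum_spec S g hgr] at hland
  have hsub : ({c} : Finset (ℕ × ℕ × ℕ)) ×ˢ S.Kset ⊆ S.Om := by
    intro ω hω
    simp only [Finset.mem_product, Finset.mem_singleton] at hω
    simp only [Om, Finset.mem_product]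
    exact ⟨hω.1 ▸ hc, hω.2⟩
  have hAb : ∀ ω ∈ S.Om, S.cA g ω < 2 ^ (S.w - 1) := by
    intro ω hω
    refine lt_of_le_of_lt ?_ (hb g hg)
    unfold cA consBound
    refine List.sum_le_sum fun t ht => ?_
    obtain ⟨h1, h2, h3⟩ := hgr t ht
    have := S.eT_le hdig _ _ _ h1 h2 h3 ω hω
    nlinarith [Nat.zero_le t.cm, Nat.zero_le t.cp]
  have hCb : ∀ ω ∈ S.Om, S.cC g ω < 2 ^ (S.w - 1) := by
    intro ω hω
    refine lt_of_le_of_lt ?_ (hb g hg)
    unfold cC consBound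
    refine List.sum_le_sum fun t ht => ?_
    obtain ⟨h1, h2, h3⟩ := hgr t ht
    have := S.eT_le hdig _ _ _ h1 h2 h3 ω hω
    nlinarith [Nat.zero_le t.cm, Nat.zero_le t.cp, Nat.zero_le S.v]
  have hlt := excl_pack S.Om _ hsub S.pos S.pos_inj S.w hw (S.cA g) (S.cC g) hAb hCb hland
  -- analytic part
  have hle := S.consV_le hok hdig c hc x hx g hgr
  have hpos : 0 ≤ (2 ^ S.F : ℝ) ^ 3 * consV g x := mul_nonneg (by positivity) (hcons g hg)
  have hterm : ∀ k ∈ S.Kset, (((S.cA g (c, k) : ℕ) : ℝ) - ((S.cC g (c, k) : ℕ) : ℝ)) * S.bT c x k ≤ 0 := by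
    intro k hk
    have h1 := hlt (c, k) (by simp [hk])
    have h2 : ((S.cA g (c, k) : ℕ) : ℝ) < ((S.cC g (c, k) : ℕ) : ℝ) := by exact_mod_cast h1
    exact mul_nonpos_of_nonpos_of_nonneg (by linarith) (S.bT_nonneg hok c hc x hx k)
  have hzero : ∑ k ∈ S.Kset, (((S.cA g (c, k) : ℕ) : ℝ) - ((S.cC g (c, k) : ℕ) : ℝ)) * S.bT c x k = 0 :=
    le_antisymm (Finset.sum_nonpos hterm) (hpos.trans hle)
  have hb0 : ∀ k ∈ S.Kset, S.bT c x k = 0 := by
    intro k hk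
    have h0 := (Finset.sum_eq_zero_iff_of_nonpos hterm).mp hzero k hk
    have h1 := hlt (c, k) (by simp [hk])
    have h2 : ((S.cA g (c, k) : ℕ) : ℝ) < ((S.cC g (c, k) : ℕ) : ℝ) := by exact_mod_cast h1
    rcases mul_eq_zero.mp h0 with h3 | h3
    · exfalso; linarith
    · exact h3
  have hd1 : 0 < S.dd1 := by unfold dd1; omega
  have hd2 : 0 < S.dd2 := by unfold dd2; omega
  have hd3 : 0 < S.dd3 := by unfold dd3; omega
  obtain ⟨_, s2⟩ := S.tensor_sand hok hdig c hc x hx 0 0 0 hd1 hd2 hd3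
  have hs0 : ∑ k ∈ S.Kset, ((S.eT 0 0 0 (c, k) + S.v : ℕ) : ℝ) * S.bT c x k = 0 :=
    Finset.sum_eq_zero fun k hk => by rw [hb0 k hk, mul_zero]
  rw [hs0, mT_eq] at s2
  have : (0 : ℝ) < (2 ^ S.F) ^ 3 * (x.1 ^ 0 * x.2.1 ^ 0 * x.2.2 ^ 0) := by
    simp only [pow_zero, mul_one]
    positivity
  linarith

end Side

end Crest.Agent.Lib.Bc.BiCheck
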