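import Crest.Agent.Lib.Bc.BiCheck.Axis
/-!
# BiCheck, part C: one side (three axes, tensor grid), packed digits, exclusion of cells.
-/
set_option autoImplicit false
open Finset

namespace Crest.Agent.Lib.Bc.BiCheck

/-- an axis: denominator, Bernstein degree, breakpoints (numerators) -/
structure Ax where
  D : ℕ
  d : ℕ
  pts : List ℕ

namespace Ax
noncomputable def L (a : Ax) (c : ℕ) : ℕ := nthN a.pts c
noncomputable def U (a : Ax) (c : ℕ) : ℕ := nthN a.pts (c + 1)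
def n (a : Ax) : ℕ := a.pts.length - 1
noncomputable def ok (a : Ax) : Bool :=
  Nat.ble 1 a.D && (Nat.ble 2 a.pts.length && allR a.n fun c => Nat.ble (Nat.succ (a.L c)) (a.U c))
end Ax

lemma Ax.ok_spec (a : Ax) (h : a.ok = true) :
    0 < a.D ∧ 2 ≤ a.pts.length ∧ ∀ c < a.n, a.L c < a.U c := by
  unfold Ax.ok at h
  simp only [Bool.and_eq_true] at h
  obtain ⟨h1, h2, h3⟩ := h
  refine ⟨Nat.le_of_ble_eq_true h1, Nat.le_of_ble_eq_true h2, fun c hc => ?_⟩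
  exact Nat.le_of_ble_eq_true (allR_eq_true _ _ h3 c hc)

lemma exists_cell (l : List ℕ) (hl : 2 ≤ l.length) (τ : ℝ) (h0 : (l.getD 0 0 : ℝ) ≤ τ)
    (h1 : τ ≤ l.getD (l.length - 1) 0) :
    ∃ c, c + 1 < l.length ∧ (l.getD c 0 : ℝ) ≤ τ ∧ τ ≤ l.getD (c + 1) 0 := by
  induction l with
  | nil => simp at hl
  | cons a l ih =>
    cases l with
    | nil => simp at hl
    | cons b l =>
      by_cases hb : τ ≤ (b : ℝ)
      · exact ⟨0, by simp, by simpa using h0, by simpa using hb⟩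
      · have hb' : (b : ℝ) ≤ τ := le_of_lt (not_le.mp hb)
        cases l with
        | nil =>
          exfalso
          apply hb
          simpa using h1
        | cons e l =>
          obtain ⟨c, hc, h2, h3⟩ := ih (by simp) (by simpa using hb') (by simpa using h1)
          refine ⟨c + 1, by simpa using hc, ?_, ?_⟩
          · simpa using h2
          · simpa using h3

lemma Ax.exists_cell (a : Ax) (hok : a.ok = true) (t : ℝ) (h0 : (a.L 0 : ℝ) ≤ a.D * t)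
    (h1 : (a.D : ℝ) * t ≤ a.L a.n) :
    ∃ c, c < a.n ∧ (a.L c : ℝ) ≤ a.D * t ∧ (a.D : ℝ) * t ≤ a.U c := by
  obtain ⟨_, h2, _⟩ := a.ok_spec hok
  unfold Ax.L at h0 h1
  rw [nthN_eq] at h0 h1
  obtain ⟨c, hc, h3, h4⟩ := BiCheck.exists_cell a.pts h2 _ h0 h1
  refine ⟨c, by unfold Ax.n; omega, ?_, ?_⟩
  · unfold Ax.L; rw [nthN_eq]; exact h3
  · unfold Ax.U; rw [nthN_eq]; exact h4

/-- digit of axis `a`, exponent `f`, cell `c`, basis index `k` -/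
noncomputable def eA (F : ℕ) (a : Ax) (f c k : ℕ) : ℕ := eDig F a.D a.d (a.L c) (a.U c) f k

/-- basis value -/
noncomputable def bA (a : Ax) (c : ℕ) (t : ℝ) (k : ℕ) : ℝ := basV a.D a.d (a.L c) (a.U c) t k

/-- specification of the digit table: cell, exponent, index -/
noncomputable def tabA (F : ℕ) (a : Ax) : List (List (List ℕ)) :=
  (List.range a.n).map fun c => (List.range (a.d + 1)).map fun f =>
    (List.range (a.d + 1)).map fun k => eA F a f c k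

noncomputable def rowDig (F : ℕ) (a : Ax) (bn : List ℕ) (Dd c f : ℕ) : List ℕ :=
  forceL (expand (a.L c) (a.U c) a.D f (a.d - f)) fun r =>
    (List.range (a.d + 1)).map fun k =>
      Nat.div (Nat.mul (nthN r k) (Nat.pow 2 F)) (Nat.mul (nthN bn k) Dd)

/-- the kernel computation of the table -/
noncomputable def tabF (F : ℕ) (a : Ax) : List (List (List ℕ)) :=
  forceL (binomL a.d) fun bn => app (Nat.pow a.D a.d) fun Dd =>
    (List.range a.n).map fun c => (List.range (a.d + 1)).map fun f => rowDig F a bn Dd c f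

lemma tabF_eq (F : ℕ) (a : Ax) : tabF F a = tabA F a := by
  unfold tabF tabA rowDig
  simp only [forceL_eq, app_eq]
  refine List.map_congr_left fun c _ => List.map_congr_left fun f _ => List.map_congr_left fun k _ => ?_
  simp only [nthN_eq]
  rfl

/-- list of lists access -/
noncomputable def nthLL (l : List (List ℕ)) : ℕ → List ℕ :=
  List.rec (motive := fun _ => ℕ → List ℕ) (fun _ => [])
    (fun a _ ih i => Nat.rec (motive := fun _ => List ℕ) a (fun j _ => ih j) i) l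

lemma nthLL_eq (l : List (List ℕ)) (i : ℕ) : nthLL l i = l.getD i [] := by
  induction l generalizing i with
  | nil => simp [nthLL]
  | cons a as ih =>
    cases i with
    | zero => rfl
    | succ j =>
      show nthLL as j = _
      rw [ih]; simp

noncomputable def nthL3 (l : List (List (List ℕ))) : ℕ → List (List ℕ) :=
  List.rec (motive := fun _ => ℕ → List (List ℕ)) (fun _ => [])
    (fun a _ ih i => Nat.rec (motive := fun _ => List (List ℕ)) a (fun j _ => ih j) i) l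

lemma nthL3_eq (l : List (List (List ℕ))) (i : ℕ) : nthL3 l i = l.getD i [] := by
  induction l generalizing i with
  | nil => simp [nthL3]
  | cons a as ih =>
    cases i with
    | zero => rfl
    | succ j =>
      show nthL3 as j = _
      rw [ih]; simp

/-- Horner evaluation of a list in base `B`, strict -/
noncomputable def hornerL (B : ℕ) (l : List ℕ) : ℕ :=
  List.rec (motive := fun _ => ℕ) (nat_lit 0)
    (fun a _ ih => app ih fun r => Nat.add a (Nat.mul B r)) l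

lemma hornerL_range (B n : ℕ) (g : ℕ → ℕ) :
    hornerL B ((List.range n).map g) = ∑ i ∈ range n, g i * B ^ i := by
  induction n generalizing g with
  | zero => rfl
  | succ n ih =>
    rw [List.range_succ_eq_map, List.map_cons, List.map_map, Finset.sum_range_succ']
    show g 0 + B * hornerL B ((List.range n).map (g ∘ Nat.succ)) = _
    rw [ih, Finset.mul_sum, add_comm]
    simp only [pow_zero, mul_one, Function.comp]
    congr 1
    refine Finset.sum_congr rfl fun i _ => ?_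
    ring

/-- axis pack for a digit function -/
def axPack (w σ τ n dd : ℕ) (g : ℕ → ℕ → ℕ) : ℕ :=
  ∑ c ∈ range n, ∑ k ∈ range dd, g c k * (2 ^ w) ^ (σ * k + τ * c)

lemma hornerL_axPack (w σ τ n dd : ℕ) (g : ℕ → ℕ → ℕ) :
    hornerL (2 ^ (w * τ)) ((List.range n).map fun c =>
        hornerL (2 ^ (w * σ)) ((List.range dd).map (g c))) = axPack w σ τ n dd g := by
  rw [hornerL_range]
  unfold axPack
  refine Finset.sum_congr rfl fun c _ => ?_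
  rw [hornerL_range, Finset.sum_mul]
  refine Finset.sum_congr rfl fun k _ => ?_
  rw [pow_add, pow_mul, pow_mul, pow_mul, pow_mul]
  ring

/-- a side: three axes, precision, digit bound, limb width -/
structure Side where
  A1 : Ax
  A2 : Ax
  A3 : Ax
  F : ℕ
  E : ℕ
  w : ℕ

namespace Side
variable (S : Side)
def dd1 : ℕ := S.A1.d + 1
def dd2 : ℕ := S.A2.d + 1
def dd3 : ℕ := S.A3.d + 1
def n1 : ℕ := S.A1.n
def n2 : ℕ := S.A2.n
def n3 : ℕ := S.A3.n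
def DD : ℕ := S.dd1 * S.dd2 * S.dd3
def sig (k : ℕ × ℕ × ℕ) : ℕ := k.1 + S.dd1 * k.2.1 + S.dd1 * S.dd2 * k.2.2
def cid (c : ℕ × ℕ × ℕ) : ℕ := c.1 + S.n1 * c.2.1 + S.n1 * S.n2 * c.2.2
def pos (ω : (ℕ × ℕ × ℕ) × (ℕ × ℕ × ℕ)) : ℕ := S.sig ω.2 + S.DD * S.cid ω.1
def Cset : Finset (ℕ × ℕ × ℕ) := range S.n1 ×ˢ range S.n2 ×ˢ range S.n3
def Kset : Finset (ℕ × ℕ × ℕ) := range S.dd1 ×ˢ range S.dd2 ×ˢ range S.dd3
def Om : Finset ((ℕ × ℕ × ℕ) × (ℕ × ℕ × ℕ)) := S.Cset ×ˢ S.Kset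
/-- pack of a digit function -/
def pk (d : (ℕ × ℕ × ℕ) × (ℕ × ℕ × ℕ) → ℕ) : ℕ := ∑ ω ∈ S.Om, d ω * (2 ^ S.w) ^ S.pos ω
/-- tensor digit -/
noncomputable def eT (a b c : ℕ) (ω : (ℕ × ℕ × ℕ) × (ℕ × ℕ × ℕ)) : ℕ :=
  eA S.F S.A1 a ω.1.1 ω.2.1 * eA S.F S.A2 b ω.1.2.1 ω.2.2.1 * eA S.F S.A3 c ω.1.2.2 ω.2.2.2
/-- tensor basis at a point -/
noncomputable def bT (c : ℕ × ℕ × ℕ) (x : ℝ × ℝ × ℝ) (k : ℕ × ℕ × ℕ) : ℝ :=
  bA S.A1 c.1 x.1 k.1 * bA S.A2 c.2.1 x.2.1 k.2.1 * bA S.A3 c.2.2 x.2.2 k.2.2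
/-- scaled monomial -/
noncomputable def mT (a b c : ℕ) (x : ℝ × ℝ × ℝ) : ℝ :=
  (2 ^ S.F * x.1 ^ a) * (2 ^ S.F * x.2.1 ^ b) * (2 ^ S.F * x.2.2 ^ c)
/-- point in a cell -/
def InCell (c : ℕ × ℕ × ℕ) (x : ℝ × ℝ × ℝ) : Prop :=
  ((S.A1.L c.1 : ℝ) ≤ S.A1.D * x.1 ∧ (S.A1.D : ℝ) * x.1 ≤ S.A1.U c.1) ∧
  ((S.A2.L c.2.1 : ℝ) ≤ S.A2.D * x.2.1 ∧ (S.A2.D : ℝ) * x.2.1 ≤ S.A2.U c.2.1) ∧
  ((S.A3.L c.2.2 : ℝ) ≤ S.A3.D * x.2.2 ∧ (S.A3.D : ℝ) * x.2.2 ≤ S.A3.U c.2.2)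
/-- point in the box -/
def InBox (x : ℝ × ℝ × ℝ) : Prop :=
  ((S.A1.L 0 : ℝ) ≤ S.A1.D * x.1 ∧ (S.A1.D : ℝ) * x.1 ≤ S.A1.L S.A1.n) ∧
  ((S.A2.L 0 : ℝ) ≤ S.A2.D * x.2.1 ∧ (S.A2.D : ℝ) * x.2.1 ≤ S.A2.L S.A2.n) ∧
  ((S.A3.L 0 : ℝ) ≤ S.A3.D * x.2.2 ∧ (S.A3.D : ℝ) * x.2.2 ≤ S.A3.L S.A3.n)
/-- all three axes valid -/
noncomputable def axOK : Bool := S.A1.ok && (S.A2.ok && S.A3.ok)
/-- digit bounds of a table -/
def tabOK (T : List (List (List ℕ))) (E : ℕ) : Bool :=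
  T.all fun r => r.all fun s => s.all fun x => Nat.ble x E
/-- the error constant -/
def v : ℕ := 3 * S.E ^ 2 + 3 * S.E + 1
end Side

lemma tabOK_spec (F E : ℕ) (a : Ax) (h : Side.tabOK (tabA F a) E = true) :
    ∀ f < a.d + 1, ∀ c < a.n, ∀ k < a.d + 1, eA F a f c k ≤ E := by
  intro f hf c hc k hk
  unfold Side.tabOK tabA at h
  simp only [List.all_map, List.all_eq_true, List.mem_range, Function.comp] at h
  exact Nat.le_of_ble_eq_true (h c hc f hf k hk)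

lemma mr_inj (m a a' b b' : ℕ) (ha : a < m) (ha' : a' < m) (h : a + m * b = a' + m * b') :
    a = a' ∧ b = b' := by
  have hm : 0 < m := by omega
  have h1 := congrArg (· % m) h
  simp only [Nat.add_mul_mod_self_left, Nat.mod_eq_of_lt ha, Nat.mod_eq_of_lt ha'] at h1
  subst h1
  have h2 : m * b = m * b' := by omega
  exact ⟨rfl, Nat.eq_of_mul_eq_mul_left hm h2⟩

lemma mr_lt (m n a b : ℕ) (ha : a < m) (hb : b < n) : a + m * b < m * n := by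
  have : m * (b + 1) ≤ m * n := Nat.mul_le_mul_left _ hb
  have e : m * (b + 1) = m * b + m := by ring
  omega

namespace Side
variable (S : Side)

lemma sig_eq (k : ℕ × ℕ × ℕ) : S.sig k = k.1 + S.dd1 * (k.2.1 + S.dd2 * k.2.2) := by
  unfold sig; ring

lemma sig_lt (k : ℕ × ℕ × ℕ) (hk : k ∈ S.Kset) : S.sig k < S.DD := by
  simp only [Kset, Finset.mem_product, Finset.mem_range] at hk
  rw [sig_eq]
  have h := mr_lt S.dd2 S.dd3 _ _ hk.2.1 hk.2.2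
  have := mr_lt S.dd1 (S.dd2 * S.dd3) _ _ hk.1 h
  unfold DD
  rw [mul_assoc]
  exact this

lemma sig_inj (k k' : ℕ × ℕ × ℕ) (hk : k ∈ S.Kset) (hk' : k' ∈ S.Kset) (h : S.sig k = S.sig k') :
    k = k' := by
  simp only [Kset, Finset.mem_product, Finset.mem_range] at hk hk'
  rw [sig_eq, sig_eq] at h
  obtain ⟨h1, h2⟩ := mr_inj S.dd1 _ _ _ _ hk.1 hk'.1 h
  obtain ⟨h3, h4⟩ := mr_inj S.dd2 _ _ _ _ hk.2.1 hk'.2.1 h2
  ext <;> simp [*]

lemma cid_eq (c : ℕ × ℕ × ℕ) : S.cid c = c.1 + S.n1 * (c.2.1 + S.n2 * c.2.2) := by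
  unfold cid; ring

lemma cid_inj (c c' : ℕ × ℕ × ℕ) (hc : c ∈ S.Cset) (hc' : c' ∈ S.Cset) (h : S.cid c = S.cid c') :
    c = c' := by
  simp only [Cset, Finset.mem_product, Finset.mem_range] at hc hc'
  rw [cid_eq, cid_eq] at h
  obtain ⟨h1, h2⟩ := mr_inj S.n1 _ _ _ _ hc.1 hc'.1 h
  obtain ⟨h3, h4⟩ := mr_inj S.n2 _ _ _ _ hc.2.1 hc'.2.1 h2
  ext <;> simp [*]

lemma pos_inj : Set.InjOn S.pos (S.Om : Set _) := by
  intro ω hω ω' hω' h
  simp only [Om, Finset.coe_product, Set.mem_prod, Finset.mem_coe] at hω hω'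
  unfold pos at h
  obtain ⟨h1, h2⟩ := mr_inj S.DD _ _ _ _ (S.sig_lt _ hω.2) (S.sig_lt _ hω'.2) h
  have := S.sig_inj _ _ hω.2 hω'.2 h1
  have := S.cid_inj _ _ hω.1 hω'.1 h2
  exact Prod.ext ‹_› ‹_›

/-! ### packs -/

lemma tri (s t u : Finset ℕ) (f g h : ℕ → ℕ) :
    (∑ i ∈ s, f i) * (∑ i ∈ t, g i) * (∑ i ∈ u, h i)
      = ∑ x ∈ s ×ˢ t ×ˢ u, f x.1 * g x.2.1 * h x.2.2 := by
  rw [Finset.sum_mul_sum, Finset.sum_mul, Finset.sum_product]
  refine Finset.sum_congr rfl fun i _ => ?_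
  rw [Finset.sum_mul, Finset.sum_product]
  refine Finset.sum_congr rfl fun j _ => ?_
  rw [Finset.mul_sum]

/-- the three axis packs multiply to the tensor pack -/
lemma pack3 (g₁ g₂ g₃ : ℕ → ℕ → ℕ) :
    axPack S.w 1 S.DD S.n1 S.dd1 g₁ * axPack S.w S.dd1 (S.DD * S.n1) S.n2 S.dd2 g₂
        * axPack S.w (S.dd1 * S.dd2) (S.DD * S.n1 * S.n2) S.n3 S.dd3 g₃
      = S.pk fun ω => g₁ ω.1.1 ω.2.1 * g₂ ω.1.2.1 ω.2.2.1 * g₃ ω.1.2.2 ω.2.2.2 := by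
  unfold axPack pk Om Cset
  rw [tri]
  conv_rhs => rw [Finset.sum_product]
  refine Finset.sum_congr rfl fun c _ => ?_
  rw [tri]
  unfold Kset
  refine Finset.sum_congr rfl fun k _ => ?_
  have : S.pos (c, k) = (1 * k.1 + S.DD * c.1) + (S.dd1 * k.2.1 + S.DD * S.n1 * c.2.1)
      + (S.dd1 * S.dd2 * k.2.2 + S.DD * S.n1 * S.n2 * c.2.2) := by
    simp only [pos, sig, cid]
    ring
  rw [this, pow_add, pow_add]
  ring

lemma pk_add (d e : (ℕ × ℕ × ℕ) × (ℕ × ℕ × ℕ) → ℕ) :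
    S.pk d + S.pk e = S.pk fun ω => d ω + e ω := by
  unfold pk
  rw [← Finset.sum_add_distrib]
  refine Finset.sum_congr rfl fun ω _ => ?_
  ring

lemma pk_mul (a : ℕ) (d : (ℕ × ℕ × ℕ) × (ℕ × ℕ × ℕ) → ℕ) :
    a * S.pk d = S.pk fun ω => a * d ω := by
  unfold pk
  rw [Finset.mul_sum]
  refine Finset.sum_congr rfl fun ω _ => ?_
  ring

lemma pk_sum {β : Type} (l : List β) (d : β → (ℕ × ℕ × ℕ) × (ℕ × ℕ × ℕ) → ℕ) :
    (l.map fun t => S.pk (d t)).sum = S.pk fun ω => (l.map fun t => d t ω).sum := by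
  induction l with
  | nil => simp [pk]
  | cons t l ih =>
    simp only [List.map_cons, List.sum_cons]
    rw [ih, pk_add]

lemma pk_finsum {β : Type} (s : Finset β) (d : β → (ℕ × ℕ × ℕ) × (ℕ × ℕ × ℕ) → ℕ) :
    (∑ f ∈ s, S.pk (d f)) = S.pk fun ω => ∑ f ∈ s, d f ω := by
  unfold pk
  rw [Finset.sum_comm]
  refine Finset.sum_congr rfl fun ω _ => ?_
  rw [Finset.sum_mul]

lemma pk_congr (d e : (ℕ × ℕ × ℕ) × (ℕ × ℕ × ℕ) → ℕ) (h : ∀ ω ∈ S.Om, d ω = e ω) :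
    S.pk d = S.pk e := by
  unfold pk
  exact Finset.sum_congr rfl fun ω hω => by rw [h ω hω]

lemma pk_le (d e : (ℕ × ℕ × ℕ) × (ℕ × ℕ × ℕ) → ℕ) (h : ∀ ω ∈ S.Om, d ω ≤ e ω) :
    S.pk d ≤ S.pk e := by
  unfold pk
  exact Finset.sum_le_sum fun ω hω => Nat.mul_le_mul_right _ (h ω hω)

lemma pk_sub (d e : (ℕ × ℕ × ℕ) × (ℕ × ℕ × ℕ) → ℕ) (h : ∀ ω ∈ S.Om, e ω ≤ d ω) :
    S.pk d - S.pk e = S.pk fun ω => d ω - e ω := by
  have : S.pk (fun ω => d ω - e ω) + S.pk e = S.pk d := by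
    rw [pk_add]
    exact S.pk_congr _ _ fun ω hω => Nat.sub_add_cancel (h ω hω)
  omega

/-! ### The tensor sandwich -/

lemma bT_nonneg (hok : S.axOK = true) (c : ℕ × ℕ × ℕ) (hc : c ∈ S.Cset) (x : ℝ × ℝ × ℝ)
    (hx : S.InCell c x) (k : ℕ × ℕ × ℕ) : 0 ≤ S.bT c x k := by
  simp only [axOK, Bool.and_eq_true] at hok
  simp only [Cset, Finset.mem_product, Finset.mem_range] at hc
  have h1 := (S.A1.ok_spec hok.1).2.2 c.1 hc.1
  have h2 := (S.A2.ok_spec hok.2.1).2.2 c.2.1 hc.2.1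
  have h3 := (S.A3.ok_spec hok.2.2).2.2 c.2.2 hc.2.2
  unfold bT bA
  exact mul_nonneg (mul_nonneg (basV_nonneg _ _ _ _ _ _ h1 hx.1.1 hx.1.2)
    (basV_nonneg _ _ _ _ _ _ h2 hx.2.1.1 hx.2.1.2)) (basV_nonneg _ _ _ _ _ _ h3 hx.2.2.1 hx.2.2.2)

/-- digit bounds on a side -/
def DigOK : Prop :=
  (∀ f < S.dd1, ∀ c < S.n1, ∀ k < S.dd1, eA S.F S.A1 f c k ≤ S.E) ∧
  (∀ f < S.dd2, ∀ c < S.n2, ∀ k < S.dd2, eA S.F S.A2 f c k ≤ S.E) ∧
  (∀ f < S.dd3, ∀ c < S.n3, ∀ k < S.dd3, eA S.F S.A3 f c k ≤ S.E)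

lemma tensor_sand (hok : S.axOK = true) (hdig : S.DigOK) (c : ℕ × ℕ × ℕ) (hc : c ∈ S.Cset)
    (x : ℝ × ℝ × ℝ) (hx : S.InCell c x) (a b e : ℕ) (ha : a < S.dd1) (hb : b < S.dd2) (he : e < S.dd3) :
    (∑ k ∈ S.Kset, ((S.eT a b e (c, k) : ℕ) : ℝ) * S.bT c x k ≤ S.mT a b e x) ∧
      (S.mT a b e x ≤ ∑ k ∈ S.Kset, ((S.eT a b e (c, k) + S.v : ℕ) : ℝ) * S.bT c x k) := by
  have hok' := hok
  simp only [axOK, Bool.and_eq_true] at hok'
  simp only [Cset, Finset.mem_product, Finset.mem_range] at hc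
  obtain ⟨h1, h1', h1''⟩ := S.A1.ok_spec hok'.1
  obtain ⟨h2, h2', h2''⟩ := S.A2.ok_spec hok'.2.1
  obtain ⟨h3, h3', h3''⟩ := S.A3.ok_spec hok'.2.2
  have s1 := axis_sandwich S.F S.A1.D S.A1.d (S.A1.L c.1) (S.A1.U c.1) a x.1 h1 (h1'' _ hc.1) hx.1.1 hx.1.2
    (by unfold dd1 at ha; omega)
  have s2 := axis_sandwich S.F S.A2.D S.A2.d (S.A2.L c.2.1) (S.A2.U c.2.1) b x.2.1 h2 (h2'' _ hc.2.1)
    hx.2.1.1 hx.2.1.2 (by unfold dd2 at hb; omega)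
  have s3 := axis_sandwich S.F S.A3.D S.A3.d (S.A3.L c.2.2) (S.A3.U c.2.2) e x.2.2 h3 (h3'' _ hc.2.2)
    hx.2.2.1 hx.2.2.2 (by unfold dd3 at he; omega)
  have := prod3_sandwich (range S.dd1) (range S.dd2) (range S.dd3)
    (eA S.F S.A1 a c.1) (eA S.F S.A2 b c.2.1) (eA S.F S.A3 e c.2.2)
    (bA S.A1 c.1 x.1) (bA S.A2 c.2.1 x.2.1) (bA S.A3 c.2.2 x.2.2)
    (fun k _ => basV_nonneg _ _ _ _ _ _ (h1'' _ hc.1) hx.1.1 hx.1.2)
    (fun k _ => basV_nonneg _ _ _ _ _ _ (h2'' _ hc.2.1) hx.2.1.1 hx.2.1.2)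
    (fun k _ => basV_nonneg _ _ _ _ _ _ (h3'' _ hc.2.2) hx.2.2.1 hx.2.2.2)
    _ _ _ S.E
    (fun k hk => hdig.1 a ha _ hc.1 k (Finset.mem_range.mp hk))
    (fun k hk => hdig.2.1 b hb _ hc.2.1 k (Finset.mem_range.mp hk))
    (fun k hk => hdig.2.2 e he _ hc.2.2 k (Finset.mem_range.mp hk))
    s1 s2 s3
  simp only [Kset, Finset.sum_product]
  exact this

end Side

end Crest.Agent.Lib.Bc.BiCheck
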