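import Crest.Agent.Lib.Bc.BiCheck.Main
/-!
# BiCheck, part F: the check and its soundness theorem `check_sound`.
-/
set_option autoImplicit false
open Finset

namespace Crest.Agent.Lib.Bc.BiCheck

namespace Prob
variable (P : Prob)

def NF : ℕ := P.X.dd3 * P.X.dd2 * P.X.dd1
def Fset : Finset (ℕ × ℕ × ℕ) := range P.X.dd3 ×ˢ range P.X.dd2 ×ˢ range P.X.dd1

structure Basic : Prop where
  axX : P.X.axOK = true
  axY : P.Y.axOK = true
  digX : P.X.DigOK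
  digY : P.Y.DigOK
  wX : 0 < P.X.w
  wY : 0 < P.Y.w
  rX : ∀ g ∈ P.consX, P.X.consRange g = true
  rY : ∀ g ∈ P.consY, P.Y.consRange g = true
  bX : ∀ g ∈ P.consX, P.X.consBound g < 2 ^ (P.X.w - 1)
  bY : ∀ g ∈ P.consY, P.Y.consBound g < 2 ^ (P.Y.w - 1)
  hT : P.TermsOK
  hOFF : P.total ≤ P.OFF
  hW0 : P.NF * (P.X.E * P.X.E * P.X.E) < 2 ^ P.W0
  hW : P.NF * (2 * (P.X.E * P.X.E * P.X.E) + P.X.v) * P.OFF < 2 ^ (P.Y.w - 1)

/-- digit of the `X` side, row `f` -/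
noncomputable def gX (c k f : ℕ × ℕ × ℕ) : ℕ := P.X.eT f.2.2 f.2.1 f.1 (c, k)

noncomputable def tau (f : ℕ × ℕ × ℕ) (ω : (ℕ × ℕ × ℕ) × (ℕ × ℕ × ℕ)) : ℕ :=
  P.Pd f ω + P.OFF - P.Nd f ω

lemma mem_Fset (f : ℕ × ℕ × ℕ) (hf : f ∈ P.Fset) :
    f.2.2 < P.X.dd1 ∧ f.2.1 < P.X.dd2 ∧ f.1 < P.X.dd3 := by
  simp only [Fset, Finset.mem_product, Finset.mem_range] at hf
  exact ⟨hf.2.2, hf.2.1, hf.1⟩

lemma gX_le (hB : P.Basic) (c k f : ℕ × ℕ × ℕ) (hc : c ∈ P.X.Cset) (hk : k ∈ P.X.Kset)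
    (hf : f ∈ P.Fset) : P.gX c k f ≤ P.X.E * P.X.E * P.X.E := by
  obtain ⟨h1, h2, h3⟩ := P.mem_Fset f hf
  exact P.X.eT_le hB.digX _ _ _ h1 h2 h3 (c, k) (by simp [Side.Om, hc, hk])

lemma card_Fset : P.Fset.card = P.NF := by
  simp [Fset, NF, Finset.card_product, mul_assoc]

lemma NF_pos : 0 < P.NF := by
  unfold NF Side.dd1 Side.dd2 Side.dd3
  positivity

/-- The digit comparison extracted from the main loop. -/
lemma digit_compare (hB : P.Basic) (NX NY : List ℕ)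
    (hM : mainLoop P.X.n1 P.X.dd1 P.X.n2 P.X.dd2 P.X.n3 P.X.dd3 (tabA P.X.F P.X.A1) (tabA P.X.F P.X.A2)
      (tabA P.X.F P.X.A3) (P.ttF P.Y.ptabSpec P.Y.oneF)
      (testOne P.W0 P.OFF P.Y.oneF (2 ^ (P.Y.w - 1) * P.Y.oneF) (P.taF P.Y.ptabSpec P.Y.oneF)
        (hvF P.Y P.Y.poF NY))
      (fun c => P.X.exclB P.X.poF NX c) = true)
    (c k : ℕ × ℕ × ℕ) (hc : c ∈ P.X.Cset) (hk : k ∈ P.X.Kset) (hex : P.X.exclB P.X.poF NX c = false)
    (cY l : ℕ × ℕ × ℕ) (hcY : cY ∈ P.Y.Cset) (hl : l ∈ P.Y.Kset)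
    (hexY : P.Y.exclB P.Y.poF NY cY = false) :
    P.OFF * (∑ f ∈ P.Fset, P.gX c k f) + P.X.v * P.Ad (cY, l)
      ≤ ∑ f ∈ P.Fset, P.gX c k f * P.tau f (cY, l) := by
  obtain ⟨c1, c2, c3⟩ := c
  obtain ⟨k1, k2, k3⟩ := k
  have hc' := hc
  have hk' := hk
  simp only [Side.Cset, Side.Kset, Finset.mem_product, Finset.mem_range] at hc' hk'
  have h0 := mainLoop_spec _ _ _ _ _ _ _ _ _ _ _ _ hM c1 k1 c2 k2 c3 k3 hc'.1 hk'.1 hc'.2.1 hk'.2.1
    hc'.2.2 hk'.2.2 hex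
  rw [show colA P.X.dd3 (tabA P.X.F P.X.A3) c3 k3 = _ from colA_tab _ _ _ _ hc'.2.2 hk'.2.2,
    show colA P.X.dd1 (tabA P.X.F P.X.A1) c1 k1 = _ from colA_tab _ _ _ _ hc'.1 hk'.1,
    show colA P.X.dd2 (tabA P.X.F P.X.A2) c2 k2 = _ from colA_tab _ _ _ _ hc'.2.1 hk'.2.1] at h0
  unfold ttF at h0
  rw [show P.X.A3.d + 1 = P.X.dd3 from rfl, show P.X.A1.d + 1 = P.X.dd1 from rfl,
    show P.X.A2.d + 1 = P.X.dd2 from rfl, contraction_eq] at h0
  set c : ℕ × ℕ × ℕ := (c1, c2, c3) with hcdef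
  set k : ℕ × ℕ × ℕ := (k1, k2, k3) with hkdef
  have hg : ∀ f : ℕ × ℕ × ℕ, eA P.X.F P.X.A1 f.2.2 c1 k1 * eA P.X.F P.X.A2 f.2.1 c2 k2
      * eA P.X.F P.X.A3 f.1 c3 k3 = P.gX c k f := fun f => rfl
  have hS' : (∑ f ∈ range P.X.dd3 ×ˢ range P.X.dd2 ×ˢ range P.X.dd1,
      (eA P.X.F P.X.A1 f.2.2 c1 k1 * eA P.X.F P.X.A2 f.2.1 c2 k2 * eA P.X.F P.X.A3 f.1 c3 k3)
        * P.tF P.Y.ptabSpec P.Y.oneF f)
      = (P.Y.pk fun ω => ∑ f ∈ P.Fset, P.gX c k f * P.tau f ω) * 2 ^ P.W0 + ∑ f ∈ P.Fset, P.gX c k f := by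
    rw [← Side.pk_finsum]
    rw [Finset.sum_mul, ← Finset.sum_add_distrib]
    refine Finset.sum_congr rfl fun f _ => ?_
    rw [hg f, P.tF_spec hB.digY hB.hT hB.hOFF f, ← Side.pk_mul]
    show _ = P.gX c k f * P.Y.pk (fun ω => P.Pd f ω + P.OFF - P.Nd f ω) * 2 ^ P.W0 + _
    ring
  rw [hS'] at h0
  have hGle : ∑ f ∈ P.Fset, P.gX c k f ≤ P.NF * (P.X.E * P.X.E * P.X.E) := by
    have := Finset.sum_le_card_nsmul P.Fset (P.gX c k) (P.X.E * P.X.E * P.X.E)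
      fun f hf => P.gX_le hB c k f hc hk hf
    simpa [P.card_Fset] using this
  have hland := testOne_spec _ _ _ _ _ _ _ _ (lt_of_le_of_lt hGle hB.hW0) h0
  rw [hvF_spec, P.taF_spec hB.hT, Side.hF_eq, Side.oneF_eq] at hland
  have hC : P.OFF * (∑ f ∈ P.Fset, P.gX c k f) * P.Y.pk (fun _ => 1) + P.X.v * P.Y.pk P.Ad
      = P.Y.pk fun ω => P.OFF * (∑ f ∈ P.Fset, P.gX c k f) + P.X.v * P.Ad ω := by
    rw [Side.pk_mul, Side.pk_mul, Side.pk_add]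
    simp only [mul_one]
  rw [hC] at hland
  have hsub : (P.Y.Cset.filter fun c => P.Y.exclB P.Y.poF NY c = false) ×ˢ P.Y.Kset ⊆ P.Y.Om := by
    intro ω hω
    simp only [Finset.mem_product, Finset.mem_filter] at hω
    simp only [Side.Om, Finset.mem_product]
    exact ⟨hω.1.1, hω.2⟩
  have hτ : ∀ f, ∀ ω ∈ P.Y.Om, P.tau f ω ≤ 2 * P.OFF := by
    intro f ω hω
    have := P.Pd_le hB.digY hB.hT f ω hω
    have := hB.hOFF
    unfold tau
    omega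
  have hE0 : ∀ ω ∈ P.Y.Om, (∑ f ∈ P.Fset, P.gX c k f * P.tau f ω)
      ≤ P.NF * ((P.X.E * P.X.E * P.X.E) * (2 * P.OFF)) := by
    intro ω hω
    have := Finset.sum_le_card_nsmul P.Fset (fun f => P.gX c k f * P.tau f ω)
      ((P.X.E * P.X.E * P.X.E) * (2 * P.OFF))
      fun f hf => Nat.mul_le_mul (P.gX_le hB c k f hc hk hf) (hτ f ω hω)
    simpa [P.card_Fset] using this
  have hA : ∀ ω ∈ P.Y.Om, (∑ f ∈ P.Fset, P.gX c k f * P.tau f ω) < 2 ^ (P.Y.w - 1) := by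
    intro ω hω
    refine lt_of_le_of_lt ((hE0 ω hω).trans ?_) hB.hW
    nlinarith [Nat.zero_le (P.NF * P.X.v * P.OFF)]
  have hC' : ∀ ω ∈ P.Y.Om, P.OFF * (∑ f ∈ P.Fset, P.gX c k f) + P.X.v * P.Ad ω < 2 ^ (P.Y.w - 1) := by
    intro ω hω
    refine lt_of_le_of_lt ?_ hB.hW
    have h1 := P.Ad_le hB.digY hB.hT ω hω
    have h2 : P.Ad ω ≤ P.OFF := h1.trans hB.hOFF
    have h3 : P.X.v * P.Ad ω ≤ P.X.v * P.OFF := Nat.mul_le_mul_left _ h2
    have h4 : 1 ≤ P.NF := P.NF_pos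
    have h5 : P.X.v * P.OFF ≤ P.NF * (P.X.v * P.OFF) := Nat.le_mul_of_pos_left _ h4
    have h6 : P.OFF * (∑ f ∈ P.Fset, P.gX c k f) ≤ P.OFF * (P.NF * (P.X.E * P.X.E * P.X.E)) :=
      Nat.mul_le_mul_left _ hGle
    nlinarith [Nat.zero_le (P.NF * (P.X.E * P.X.E * P.X.E) * P.OFF)]
  have := cmp_pack P.Y.Om _ hsub P.Y.pos P.Y.pos_inj P.Y.w hB.wY
    (fun ω => ∑ f ∈ P.Fset, P.gX c k f * P.tau f ω)
    (fun ω => P.OFF * (∑ f ∈ P.Fset, P.gX c k f) + P.X.v * P.Ad ω) hA hC' hland (cY, l)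
    (by simp [hcY, hl, hexY])
  exact this

end Prob

/-! ### real bounds for a row -/

section rows
variable (S : Side) (hok : S.axOK = true) (hdig : S.DigOK) (c : ℕ × ℕ × ℕ) (hc : c ∈ S.Cset)
  (y : ℝ × ℝ × ℝ) (hy : S.InCell c y)

include hok hdig hc hy

lemma row_bounds (f : ℕ × ℕ × ℕ) (ts : List Term)
    (hts : ∀ t ∈ ts, t.h1 < S.dd1 ∧ t.h2 < S.dd2 ∧ t.h3 < S.dd3) :
    (∑ l ∈ S.Kset, S.bT c y l *
        (((ts.map fun t => cond (fm t f) (t.cp * S.eT t.h1 t.h2 t.h3 (c, l)) 0).sum : ℕ) - 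
         ((ts.map fun t => cond (fm t f) (t.cm * S.eT t.h1 t.h2 t.h3 (c, l) + S.v * (t.cp + t.cm)) 0).sum : ℕ) : ℝ)
      ≤ (ts.map fun t => cond (fm t f) (((t.cp : ℝ) - t.cm) * S.mT t.h1 t.h2 t.h3 y) 0).sum) ∧
    |(ts.map fun t => cond (fm t f) (((t.cp : ℝ) - t.cm) * S.mT t.h1 t.h2 t.h3 y) 0).sum|
      ≤ ∑ l ∈ S.Kset, S.bT c y l *
        (((ts.map fun t => cond (fm t f) ((t.cp + t.cm) * (S.eT t.h1 t.h2 t.h3 (c, l) + S.v)) 0).sum : ℕ) : ℝ) := by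
  induction ts with
  | nil => simp
  | cons t ts ih =>
    obtain ⟨ih1, ih2⟩ := ih fun u hu => hts u (List.mem_cons_of_mem _ hu)
    obtain ⟨h1, h2, h3⟩ := hts t (by simp)
    obtain ⟨s1, s2⟩ := S.tensor_sand hok hdig c hc y hy t.h1 t.h2 t.h3 h1 h2 h3
    have hb : ∀ l ∈ S.Kset, 0 ≤ S.bT c y l := fun l _ => S.bT_nonneg hok c hc y hy l
    have hm0 : 0 ≤ S.mT t.h1 t.h2 t.h3 y := le_trans
      (Finset.sum_nonneg fun l hl => mul_nonneg (Nat.cast_nonneg _) (hb l hl)) s1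
    simp only [List.map_cons, List.sum_cons]
    constructor
    · have key : ∑ l ∈ S.Kset, S.bT c y l * (((cond (fm t f) (t.cp * S.eT t.h1 t.h2 t.h3 (c, l)) 0 : ℕ) : ℝ)
          - ((cond (fm t f) (t.cm * S.eT t.h1 t.h2 t.h3 (c, l) + S.v * (t.cp + t.cm)) 0 : ℕ) : ℝ))
          ≤ (cond (fm t f) (((t.cp : ℝ) - t.cm) * S.mT t.h1 t.h2 t.h3 y) 0 : ℝ) := by
        cases fm t f with
        | false => simp
        | true =>
          simp only [cond_true]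
          have a1 : (t.cp : ℝ) * ∑ l ∈ S.Kset, ((S.eT t.h1 t.h2 t.h3 (c, l) : ℕ) : ℝ) * S.bT c y l
              ≤ (t.cp : ℝ) * S.mT t.h1 t.h2 t.h3 y := mul_le_mul_of_nonneg_left s1 (Nat.cast_nonneg _)
          have a2 : (t.cm : ℝ) * S.mT t.h1 t.h2 t.h3 y ≤ (t.cm : ℝ) *
              ∑ l ∈ S.Kset, ((S.eT t.h1 t.h2 t.h3 (c, l) + S.v : ℕ) : ℝ) * S.bT c y l :=
            mul_le_mul_of_nonneg_left s2 (Nat.cast_nonneg _)
          have a3 : ∑ l ∈ S.Kset, S.bT c y l * (((t.cp * S.eT t.h1 t.h2 t.h3 (c, l) : ℕ) : ℝ)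
              - ((t.cm * S.eT t.h1 t.h2 t.h3 (c, l) + S.v * (t.cp + t.cm) : ℕ) : ℝ))
              ≤ (t.cp : ℝ) * (∑ l ∈ S.Kset, ((S.eT t.h1 t.h2 t.h3 (c, l) : ℕ) : ℝ) * S.bT c y l)
                - (t.cm : ℝ) * ∑ l ∈ S.Kset, ((S.eT t.h1 t.h2 t.h3 (c, l) + S.v : ℕ) : ℝ) * S.bT c y l := by
            rw [Finset.mul_sum, Finset.mul_sum, ← Finset.sum_sub_distrib]
            refine Finset.sum_le_sum fun l hl => ?_
            have hbl := hb l hl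
            push_cast
            have hvp : (0 : ℝ) ≤ (S.v : ℝ) * t.cp := by positivity
            nlinarith [mul_nonneg hbl hvp]
          nlinarith
      have e : ∑ l ∈ S.Kset, S.bT c y l *
          (((cond (fm t f) (t.cp * S.eT t.h1 t.h2 t.h3 (c, l)) 0 + (ts.map fun t => cond (fm t f) (t.cp * S.eT t.h1 t.h2 t.h3 (c, l)) 0).sum : ℕ) : ℝ)
          - ((cond (fm t f) (t.cm * S.eT t.h1 t.h2 t.h3 (c, l) + S.v * (t.cp + t.cm)) 0 + (ts.map fun t => cond (fm t f) (t.cm * S.eT t.h1 t.h2 t.h3 (c, l) + S.v * (t.cp + t.cm)) 0).sum : ℕ) : ℝ))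
          = ∑ l ∈ S.Kset, S.bT c y l * (((cond (fm t f) (t.cp * S.eT t.h1 t.h2 t.h3 (c, l)) 0 : ℕ) : ℝ)
          - ((cond (fm t f) (t.cm * S.eT t.h1 t.h2 t.h3 (c, l) + S.v * (t.cp + t.cm)) 0 : ℕ) : ℝ))
          + ∑ l ∈ S.Kset, S.bT c y l * (((ts.map fun t => cond (fm t f) (t.cp * S.eT t.h1 t.h2 t.h3 (c, l)) 0).sum : ℕ)
          - ((ts.map fun t => cond (fm t f) (t.cm * S.eT t.h1 t.h2 t.h3 (c, l) + S.v * (t.cp + t.cm)) 0).sum : ℕ) : ℝ) := by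
        rw [← Finset.sum_add_distrib]
        refine Finset.sum_congr rfl fun l _ => ?_
        push_cast
        ring
      rw [e]
      exact add_le_add key ih1
    · have key : |(cond (fm t f) (((t.cp : ℝ) - t.cm) * S.mT t.h1 t.h2 t.h3 y) 0 : ℝ)|
          ≤ ∑ l ∈ S.Kset, S.bT c y l *
            ((cond (fm t f) ((t.cp + t.cm) * (S.eT t.h1 t.h2 t.h3 (c, l) + S.v)) 0 : ℕ) : ℝ) := by
        cases fm t f with
        | false => simp
        | true =>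
          simp only [cond_true]
          have a1 : |((t.cp : ℝ) - t.cm) * S.mT t.h1 t.h2 t.h3 y| ≤ ((t.cp : ℝ) + t.cm) * S.mT t.h1 t.h2 t.h3 y := by
            rw [abs_mul, abs_of_nonneg hm0]
            refine mul_le_mul_of_nonneg_right ?_ hm0
            rw [abs_le]
            constructor <;> nlinarith [(Nat.cast_nonneg t.cp : (0 : ℝ) ≤ t.cp), (Nat.cast_nonneg t.cm : (0 : ℝ) ≤ t.cm)]
          refine a1.trans ?_
          have a2 := mul_le_mul_of_nonneg_left s2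
            (by positivity : (0 : ℝ) ≤ (t.cp : ℝ) + t.cm)
          refine a2.trans (le_of_eq ?_)
          rw [Finset.mul_sum]
          refine Finset.sum_congr rfl fun l _ => ?_
          push_cast
          ring
      refine (abs_add_le _ _).trans ?_
      have e : ∑ l ∈ S.Kset, S.bT c y l *
          ((cond (fm t f) ((t.cp + t.cm) * (S.eT t.h1 t.h2 t.h3 (c, l) + S.v)) 0 + (ts.map fun t => cond (fm t f) ((t.cp + t.cm) * (S.eT t.h1 t.h2 t.h3 (c, l) + S.v)) 0).sum : ℕ) : ℝ)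
          = ∑ l ∈ S.Kset, S.bT c y l * ((cond (fm t f) ((t.cp + t.cm) * (S.eT t.h1 t.h2 t.h3 (c, l) + S.v)) 0 : ℕ) : ℝ)
          + ∑ l ∈ S.Kset, S.bT c y l * (((ts.map fun t => cond (fm t f) ((t.cp + t.cm) * (S.eT t.h1 t.h2 t.h3 (c, l) + S.v)) 0).sum : ℕ) : ℝ) := by
        rw [← Finset.sum_add_distrib]
        refine Finset.sum_congr rfl fun l _ => ?_
        push_cast
        ring
      rw [e]
      exact add_le_add key ih2

end rows


/-! ## the check -/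

namespace Prob
variable (P : Prob)

/-- terms within range -/
def termsB : Bool :=
  P.terms.all fun t => Nat.blt t.f1 P.X.dd1 && (Nat.blt t.f2 P.X.dd2 && (Nat.blt t.f3 P.X.dd3 &&
    (Nat.blt t.h1 P.Y.dd1 && (Nat.blt t.h2 P.Y.dd2 && Nat.blt t.h3 P.Y.dd3))))

lemma termsB_spec (h : P.termsB = true) : P.TermsOK := by
  intro t ht
  unfold termsB at h
  have := List.all_eq_true.mp h t ht
  simp only [Bool.and_eq_true] at this
  obtain ⟨h1, h2, h3, h4, h5, h6⟩ := this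
  exact ⟨by simpa using h1, by simpa using h2, by simpa using h3, by simpa using h4,
    by simpa using h5, by simpa using h6⟩

/-- the cheap side conditions -/
noncomputable def basicB (TX1 TX2 TX3 TY1 TY2 TY3 : List (List (List ℕ))) : Bool :=
  P.X.axOK && (P.Y.axOK && (Side.tabOK TX1 P.X.E && (Side.tabOK TX2 P.X.E && (Side.tabOK TX3 P.X.E &&
  (Side.tabOK TY1 P.Y.E && (Side.tabOK TY2 P.Y.E && (Side.tabOK TY3 P.Y.E &&
  (Nat.ble 1 P.X.w && (Nat.ble 1 P.Y.w &&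
  (P.consX.all P.X.consRange && (P.consY.all P.Y.consRange &&
  (P.consX.all (fun g => Nat.blt (P.X.consBound g) (Nat.pow 2 (P.X.w - 1))) &&
  (P.consY.all (fun g => Nat.blt (P.Y.consBound g) (Nat.pow 2 (P.Y.w - 1))) &&
  (P.termsB && (Nat.ble P.total P.OFF &&
  (Nat.blt (P.NF * (P.X.E * P.X.E * P.X.E)) (Nat.pow 2 P.W0) &&
  Nat.blt (P.NF * (2 * (P.X.E * P.X.E * P.X.E) + P.X.v) * P.OFF) (Nat.pow 2 (P.Y.w - 1))))))))))))))))))

lemma basicB_spec (h : P.basicB (tabA P.X.F P.X.A1) (tabA P.X.F P.X.A2) (tabA P.X.F P.X.A3)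
    (tabA P.Y.F P.Y.A1) (tabA P.Y.F P.Y.A2) (tabA P.Y.F P.Y.A3) = true) : P.Basic := by
  unfold basicB at h
  simp only [Bool.and_eq_true] at h
  obtain ⟨h1, h2, h3, h4, h5, h6, h7, h8, h9, h10, h11, h12, h13, h14, h15, h16, h17, h18⟩ := h
  refine ⟨h1, h2, ⟨tabOK_spec _ _ _ h3, tabOK_spec _ _ _ h4, tabOK_spec _ _ _ h5⟩,
    ⟨tabOK_spec _ _ _ h6, tabOK_spec _ _ _ h7, tabOK_spec _ _ _ h8⟩,
    Nat.le_of_ble_eq_true h9, Nat.le_of_ble_eq_true h10,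
    List.all_eq_true.mp h11, List.all_eq_true.mp h12, ?_, ?_, P.termsB_spec h15,
    Nat.le_of_ble_eq_true h16, ?_, ?_⟩
  · intro g hg
    have := List.all_eq_true.mp h13 g hg
    simpa using this
  · intro g hg
    have := List.all_eq_true.mp h14 g hg
    simpa using this
  · simpa using h17
  · simpa using h18

/-- the expensive part: packs and the main loop -/
noncomputable def coreB (TX1 TX2 TX3 TY1 TY2 TY3 : List (List (List ℕ))) : Bool :=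
  forceL3 (P.Y.ptabOf TY1 TY2 TY3) fun PY =>
  app P.Y.oneF fun oneY => app (Nat.mul (Nat.pow 2 (P.Y.w - 1)) oneY) fun HY => app P.Y.poF fun poY =>
  forceL3 (P.X.ptabOf TX1 TX2 TX3) fun PX =>
  app P.X.oneF fun oneX => app (Nat.mul (Nat.pow 2 (P.X.w - 1)) oneX) fun HX => app P.X.poF fun poX =>
  forceL (P.consY.map (P.Y.consNum PY oneY HY)) fun NY =>
  forceL (P.consX.map (P.X.consNum PX oneX HX)) fun NX =>
  app (hvF P.Y poY NY) fun HV =>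
  forceL3 (P.ttF PY oneY) fun TT =>
  app (P.taF PY oneY) fun TA =>
  mainLoop P.X.n1 P.X.dd1 P.X.n2 P.X.dd2 P.X.n3 P.X.dd3 TX1 TX2 TX3 TT
    (testOne P.W0 P.OFF oneY HY TA HV) (fun c => P.X.exclB poX NX c)

/-- **The check.** -/
noncomputable def check : Bool :=
  forceL3 (tabF P.X.F P.X.A1) fun TX1 => forceL3 (tabF P.X.F P.X.A2) fun TX2 =>
  forceL3 (tabF P.X.F P.X.A3) fun TX3 =>
  forceL3 (tabF P.Y.F P.Y.A1) fun TY1 => forceL3 (tabF P.Y.F P.Y.A2) fun TY2 =>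
  forceL3 (tabF P.Y.F P.Y.A3) fun TY3 =>
  Bool.rec false (P.coreB TX1 TX2 TX3 TY1 TY2 TY3) (P.basicB TX1 TX2 TX3 TY1 TY2 TY3)

lemma cell_of_box (S : Side) (hok : S.axOK = true) (x : ℝ × ℝ × ℝ) (hx : S.InBox x) :
    ∃ c ∈ S.Cset, S.InCell c x := by
  simp only [Side.axOK, Bool.and_eq_true] at hok
  obtain ⟨c1, hc1, h1, h1'⟩ := S.A1.exists_cell hok.1 x.1 hx.1.1 hx.1.2
  obtain ⟨c2, hc2, h2, h2'⟩ := S.A2.exists_cell hok.2.1 x.2.1 hx.2.1.1 hx.2.1.2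
  obtain ⟨c3, hc3, h3, h3'⟩ := S.A3.exists_cell hok.2.2 x.2.2 hx.2.2.1 hx.2.2.2
  refine ⟨(c1, c2, c3), ?_, ⟨h1, h1'⟩, ⟨h2, h2'⟩, ⟨h3, h3'⟩⟩
  simp only [Side.Cset, Finset.mem_product, Finset.mem_range]
  exact ⟨hc1, hc2, hc3⟩

/-- **Soundness.** -/
theorem check_sound (hc : P.check = true) (x y : ℝ × ℝ × ℝ) (hx : P.X.InBox x) (hy : P.Y.InBox y)
    (hcx : ∀ g ∈ P.consX, 0 ≤ consV g x) (hcy : ∀ g ∈ P.consY, 0 ≤ consV g y) :
    0 ≤ Rval P.terms x y := by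
  unfold check at hc
  simp only [forceL3_eq, tabF_eq] at hc
  cases hb : P.basicB (tabA P.X.F P.X.A1) (tabA P.X.F P.X.A2) (tabA P.X.F P.X.A3)
      (tabA P.Y.F P.Y.A1) (tabA P.Y.F P.Y.A2) (tabA P.Y.F P.Y.A3) with
  | false => rw [hb] at hc; exact absurd hc (by simp)
  | true =>
    rw [hb] at hc
    have hB := P.basicB_spec hb
    have hcore : P.coreB (tabA P.X.F P.X.A1) (tabA P.X.F P.X.A2) (tabA P.X.F P.X.A3)
      (tabA P.Y.F P.Y.A1) (tabA P.Y.F P.Y.A2) (tabA P.Y.F P.Y.A3) = true := hc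
    unfold coreB at hcore
    simp only [forceL3_eq, forceL_eq, app_eq, Side.ptabOf_eq] at hcore
    set NY := P.consY.map (P.Y.consNum P.Y.ptabSpec P.Y.oneF (Nat.mul (Nat.pow 2 (P.Y.w - 1)) P.Y.oneF)) with hNY
    set NX := P.consX.map (P.X.consNum P.X.ptabSpec P.X.oneF (Nat.mul (Nat.pow 2 (P.X.w - 1)) P.X.oneF)) with hNX
    obtain ⟨cX, hcX, hxc⟩ := cell_of_box P.X hB.axX x hx
    obtain ⟨cY, hcY, hyc⟩ := cell_of_box P.Y hB.axY y hy
    have hexX : P.X.exclB P.X.poF NX cX = false :=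
      P.X.excl_false hB.axX hB.digX hB.wX P.consX hB.rX hB.bX cX hcX x hxc hcx
    have hexY : P.Y.exclB P.Y.poF NY cY = false :=
      P.Y.excl_false hB.axY hB.digY hB.wY P.consY hB.rY hB.bY cY hcY y hyc hcy
    have hcmp := fun k hk l hl => P.digit_compare hB NX NY hcore cX k hcX hk hexX cY l hcY hl hexY
    -- the analytic core
    have hts : ∀ t ∈ P.terms, t.h1 < P.Y.dd1 ∧ t.h2 < P.Y.dd2 ∧ t.h3 < P.Y.dd3 := fun t ht => by
      obtain ⟨_, _, _, a, b, c⟩ := hB.hT t ht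
      exact ⟨a, b, c⟩
    have hf_mem : ∀ t ∈ P.terms, (t.f3, t.f2, t.f1) ∈ P.Fset := fun t ht => by
      obtain ⟨a, b, c, _⟩ := hB.hT t ht
      simp [Fset, a, b, c]
    have main := bilinear_core P.Fset P.X.Kset P.Y.Kset (P.X.bT cX x) (P.Y.bT cY y)
      (fun k _ => P.X.bT_nonneg hB.axX cX hcX x hxc k) (fun l _ => P.Y.bT_nonneg hB.axY cY hcY y hyc l)
      (fun f k => (P.gX cX k f : ℝ)) (fun _ _ _ _ => Nat.cast_nonneg _) (P.X.v : ℝ) (Nat.cast_nonneg _)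
      (fun f l => (P.Pd f (cY, l) : ℝ) - P.Nd f (cY, l)) (fun f l => (P.Afd f (cY, l) : ℝ))
      (fun f => P.X.mT f.2.2 f.2.1 f.1 x)
      (fun f => (P.terms.map fun t => cond (fm t f) (((t.cp : ℝ) - t.cm) * P.Y.mT t.h1 t.h2 t.h3 y) 0).sum)
      (by
        intro f hf
        obtain ⟨h1, h2, h3⟩ := P.mem_Fset f hf
        obtain ⟨s1, s2⟩ := P.X.tensor_sand hB.axX hB.digX cX hcX x hxc _ _ _ h1 h2 h3
        refine ⟨s1, s2.trans (le_of_eq ?_)⟩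
        refine Finset.sum_congr rfl fun k _ => ?_
        push_cast
        rfl)
      (fun f _ => by
        have := row_bounds P.Y hB.axY hB.digY cY hcY y hyc f P.terms hts
        refine ⟨this.1, this.2⟩)
      (by
        intro k hk l hl
        have h := hcmp k hk l hl
        have hsum : ∑ f ∈ P.Fset, P.Afd f (cY, l) = P.Ad (cY, l) :=
          sum_rows P.Fset P.terms hf_mem fun t _ => (t.cp + t.cm) * (P.eY t (cY, l) + P.Y.v)
        have hω : (cY, l) ∈ P.Y.Om := by simp [Side.Om, hcY, hl]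
        have hR : ((P.OFF : ℝ) * (∑ f ∈ P.Fset, (P.gX cX k f : ℝ)) + (P.X.v : ℝ) * (P.Ad (cY, l) : ℝ))
            ≤ ∑ f ∈ P.Fset, (P.gX cX k f : ℝ) * (P.tau f (cY, l) : ℝ) := by
          exact_mod_cast h
        have hτ : ∀ f ∈ P.Fset, (P.tau f (cY, l) : ℝ)
            = (P.Pd f (cY, l) : ℝ) + P.OFF - P.Nd f (cY, l) := by
          intro f _
          have h1 := P.Nd_le hB.digY hB.hT f (cY, l) hω
          have h2 := hB.hOFF
          unfold tau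
          rw [Nat.cast_sub (by omega)]
          push_cast
          ring
        have hS : ∑ f ∈ P.Fset, (P.gX cX k f : ℝ) * (P.tau f (cY, l) : ℝ)
            = ∑ f ∈ P.Fset, (P.gX cX k f : ℝ) * ((P.Pd f (cY, l) : ℝ) - P.Nd f (cY, l))
              + (P.OFF : ℝ) * ∑ f ∈ P.Fset, (P.gX cX k f : ℝ) := by
          rw [Finset.mul_sum, ← Finset.sum_add_distrib]
          refine Finset.sum_congr rfl fun f hf => ?_
          rw [hτ f hf]
          ring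
        rw [hS] at hR
        have hA : (P.Ad (cY, l) : ℝ) = ∑ f ∈ P.Fset, (P.Afd f (cY, l) : ℝ) := by
          rw [← hsum]; push_cast; rfl
        rw [hA] at hR
        linarith)
    -- conversion
    have e : ∑ f ∈ P.Fset, P.X.mT f.2.2 f.2.1 f.1 x *
        (P.terms.map fun t => cond (fm t f) (((t.cp : ℝ) - t.cm) * P.Y.mT t.h1 t.h2 t.h3 y) 0).sum
        = (2 ^ P.X.F) ^ 3 * (2 ^ P.Y.F) ^ 3 * Rval P.terms x y := by
      have e1 : ∀ f ∈ P.Fset, P.X.mT f.2.2 f.2.1 f.1 x *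
          (P.terms.map fun t => cond (fm t f) (((t.cp : ℝ) - t.cm) * P.Y.mT t.h1 t.h2 t.h3 y) 0).sum
          = (P.terms.map fun t => cond (fm t f)
              (P.X.mT f.2.2 f.2.1 f.1 x * (((t.cp : ℝ) - t.cm) * P.Y.mT t.h1 t.h2 t.h3 y)) 0).sum := by
        intro f _
        rw [← List.sum_map_mul_left]
        congr 1
        refine List.map_congr_left fun t _ => ?_
        cases fm t f <;> simp
      rw [Finset.sum_congr rfl e1]
      rw [sum_rows P.Fset P.terms hf_mem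
        (fun t f => P.X.mT f.2.2 f.2.1 f.1 x * (((t.cp : ℝ) - t.cm) * P.Y.mT t.h1 t.h2 t.h3 y))]
      unfold Rval
      rw [← List.sum_map_mul_left]
      congr 1
      refine List.map_congr_left fun t _ => ?_
      simp only [Side.mT_eq, termV]
      ring
    have hpos : (0 : ℝ) < (2 ^ P.X.F) ^ 3 * (2 ^ P.Y.F) ^ 3 := by positivity
    rw [e] at main
    exact nonneg_of_mul_nonneg_right main hpos

end Prob

end Crest.Agent.Lib.Bc.BiCheck
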